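import Vale.Agent.P309.Cover

open MeasureTheory ProbabilityTheory Metric Set
open scoped ENNReal RealInnerProductSpace

namespace P309

/-- covering of a tube around an affine subspace -/
theorem affine_cover {d : ℕ} {A : AffineSubspace ℝ (E d)}
    (hA : (A : Set (E d)).Nonempty) (x₀ : E d) {ρ t : ℝ} (hρ : 0 < ρ) (ht : 0 < t) :
    ∃ C : Finset (E d), (C.card : ℝ) ≤ (1 + 2 * ρ / t) ^ (Module.finrank ℝ A.direction) ∧
      {s | s ∈ closedBall x₀ ρ ∧ infDist s (A : Set (E d)) ≤ t} ⊆ ⋃ z ∈ C, closedBall z (2 * t) := by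
  obtain ⟨b, hb⟩ := hA
  obtain ⟨C, hC, hcov⟩ := exists_cover (0 : A.direction) (R := ρ) ht hρ.le
  classical
  refine ⟨C.image (fun z : A.direction => b + A.direction.starProjection (x₀ - b) + (z : E d)),
    ?_, ?_⟩
  · refine le_trans ?_ hC
    exact_mod_cast Finset.card_image_le
  · rintro s ⟨hs, hst⟩
    have hproj : ‖(s - b) - A.direction.starProjection (s - b)‖ ≤ t := by
      refine le_trans ?_ hst
      rw [le_infDist ⟨b, hb⟩]
      intro q hq
      rw [dist_eq_norm]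
      have hqb : q - b ∈ A.direction := by
        rw [← vsub_eq_sub]
        exact AffineSubspace.vsub_mem_direction hq hb
      have := Submodule.starProjection_minimal (U := A.direction) (s - b)
      rw [this]
      have h2 := ciInf_le (f := fun x : A.direction => ‖(s - b) - x‖)
        ⟨0, by rintro _ ⟨x, rfl⟩; exact norm_nonneg _⟩ ⟨q - b, hqb⟩
      refine h2.trans (le_of_eq ?_)
      simp
    set w : A.direction := ⟨A.direction.starProjection (s - x₀), Submodule.starProjection_apply_mem _ _⟩ with hw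
    have hwn : w ∈ closedBall (0 : A.direction) ρ := by
      rw [mem_closedBall_zero_iff]
      have h1 : ‖w‖ = ‖A.direction.starProjection (s - x₀)‖ := rfl
      rw [h1]
      refine (Submodule.norm_starProjection_apply_le _ _).trans ?_
      rw [← dist_eq_norm]
      exact hs
    obtain ⟨z, hz, hwz⟩ := Set.mem_iUnion₂.1 (hcov hwn)
    refine Set.mem_iUnion₂.2 ⟨_, Finset.mem_image_of_mem _ hz, ?_⟩
    rw [mem_closedBall, dist_eq_norm]
    have hwz' : ‖A.direction.starProjection (s - x₀) - (z : E d)‖ ≤ t := by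
      rw [mem_closedBall, dist_eq_norm] at hwz
      exact hwz
    have e1 : s - (b + A.direction.starProjection (x₀ - b) + (z : E d)) =
        ((s - b) - A.direction.starProjection (s - b)) +
          (A.direction.starProjection (s - x₀) - (z : E d)) := by
      have : A.direction.starProjection (s - x₀) =
          A.direction.starProjection (s - b) - A.direction.starProjection (x₀ - b) := by
        rw [← map_sub]
        congr 1
        abel
      rw [this]
      generalize A.direction.starProjection (s - b) = p1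
      generalize A.direction.starProjection (x₀ - b) = p2
      abel
    rw [e1]
    refine (norm_add_le _ _).trans ?_
    linarith

/-- TASK P309-AFFMASS: mass of a neighbourhood of an affine subspace. -/
theorem affine_mass {d u : ℕ} (hu : 1 ≤ u) {A : AffineSubspace ℝ (E d)}
    (hA : (A : Set (E d)).Nonempty) (hdim : Module.finrank ℝ A.direction ≤ 2 * u - 1)
    {μ : Measure (E d)} {K : ℝ≥0∞} (hK : Frost μ K (4 * u)) (x₀ : E d) {ρ : ℝ} (hρ : 0 < ρ)
    (j : ℕ) :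
    μ {s | s ∈ closedBall x₀ ρ ∧ infDist s (A : Set (E d)) ≤ ρ / 2 ^ j} ≤
      2 ^ (10 * u - 3) * K * ENNReal.ofReal ρ ^ (4 * u) * ((2 : ℝ≥0∞)⁻¹) ^ (j * (2 * u + 1)) := by
  have ht : 0 < ρ / 2 ^ j := by positivity
  obtain ⟨C, hC, hcov⟩ := affine_cover hA x₀ hρ ht
  have hC2 : (C.card : ℝ≥0∞) ≤ 2 ^ (6 * u - 3) * 2 ^ (j * (2 * u - 1)) := by
    have h1 : (C.card : ℝ) ≤ 2 ^ (6 * u - 3) * 2 ^ (j * (2 * u - 1)) := by
      calc (C.card : ℝ) ≤ _ := hC
        _ ≤ (8 * 2 ^ j) ^ (Module.finrank ℝ A.direction) := by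
          gcongr
          have : 2 * ρ / (ρ / 2 ^ j) = 2 * 2 ^ j := by field_simp
          rw [this]
          have : (1 : ℝ) ≤ 2 ^ j := one_le_pow₀ (by norm_num)
          linarith
        _ ≤ (8 * 2 ^ j) ^ (2 * u - 1) := by
          apply pow_le_pow_right₀ _ hdim
          have : (1 : ℝ) ≤ 2 ^ j := one_le_pow₀ (by norm_num)
          linarith
        _ = _ := by
          rw [mul_pow, ← pow_mul]
          have : (8 : ℝ) = 2 ^ 3 := by norm_num
          rw [this, ← pow_mul]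
          congr 2
          omega
    have h2 : (C.card : ℕ) ≤ 2 ^ (6 * u - 3) * 2 ^ (j * (2 * u - 1)) := by exact_mod_cast h1
    exact_mod_cast h2
  calc μ {s | s ∈ closedBall x₀ ρ ∧ infDist s (A : Set (E d)) ≤ ρ / 2 ^ j}
      ≤ μ (⋃ z ∈ C, closedBall z (2 * (ρ / 2 ^ j))) := measure_mono hcov
    _ ≤ ∑ z ∈ C, μ (closedBall z (2 * (ρ / 2 ^ j))) := measure_biUnion_finset_le _ _
    _ ≤ ∑ z ∈ C, K * ENNReal.ofReal (2 * (ρ / 2 ^ j)) ^ (4 * u) :=
        Finset.sum_le_sum fun z _ => hK z _ (by positivity)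
    _ = C.card * (K * ENNReal.ofReal (2 * (ρ / 2 ^ j)) ^ (4 * u)) := by
        rw [Finset.sum_const, nsmul_eq_mul]
    _ ≤ (2 ^ (6 * u - 3) * 2 ^ (j * (2 * u - 1))) *
          (K * ENNReal.ofReal (2 * (ρ / 2 ^ j)) ^ (4 * u)) := by gcongr
    _ = _ := by
        have e1 : ENNReal.ofReal (2 * (ρ / 2 ^ j)) =
            2 * ENNReal.ofReal ρ * ((2 : ℝ≥0∞)⁻¹) ^ j := by
          rw [ENNReal.ofReal_mul (by norm_num), div_eq_mul_inv, ENNReal.ofReal_mul hρ.le,
            ENNReal.ofReal_inv_of_pos (by positivity), ENNReal.ofReal_pow (by norm_num)]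
          rw [ENNReal.inv_pow]
          norm_num
          ring
        rw [e1, mul_pow, mul_pow, ← pow_mul]
        have e2 : (2 : ℝ≥0∞) ^ (10 * u - 3) = 2 ^ (6 * u - 3) * 2 ^ (4 * u) := by
          rw [← pow_add]; congr 1; omega
        have e3 : ((2 : ℝ≥0∞)⁻¹) ^ (j * (4 * u)) =
            ((2 : ℝ≥0∞)⁻¹) ^ (j * (2 * u - 1)) * ((2 : ℝ≥0∞)⁻¹) ^ (j * (2 * u + 1)) := by
          rw [← pow_add]
          congr 1
          rw [← mul_add]
          congr 1
          omega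
        have e4 : (2 : ℝ≥0∞) ^ (j * (2 * u - 1)) * ((2 : ℝ≥0∞)⁻¹) ^ (j * (2 * u - 1)) = 1 := by
          rw [← mul_pow, ENNReal.mul_inv_cancel (by norm_num) (by norm_num), one_pow]
        rw [e2, e3]
        calc 2 ^ (6 * u - 3) * 2 ^ (j * (2 * u - 1)) *
            (K * (2 ^ (4 * u) * ENNReal.ofReal ρ ^ (4 * u) *
              (((2 : ℝ≥0∞)⁻¹) ^ (j * (2 * u - 1)) * ((2 : ℝ≥0∞)⁻¹) ^ (j * (2 * u + 1)))))
            = (2 ^ (j * (2 * u - 1)) * ((2 : ℝ≥0∞)⁻¹) ^ (j * (2 * u - 1))) *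
              (2 ^ (6 * u - 3) * 2 ^ (4 * u) * K * ENNReal.ofReal ρ ^ (4 * u) *
                ((2 : ℝ≥0∞)⁻¹) ^ (j * (2 * u + 1))) := by ring
          _ = _ := by rw [e4, one_mul]

/-- pointwise dyadic bound -/
theorem affine_ptwise {u : ℕ} (hu : 1 ≤ u) {δ ρ : ℝ} (hδ : 0 ≤ δ) (hρ : 0 < ρ) :
    ((ENNReal.ofReal δ)⁻¹) ^ u ≤ ((ENNReal.ofReal ρ)⁻¹) ^ u *
      (1 + ∑' j : ℕ, (2 : ℝ≥0∞) ^ ((j + 1) * u) * (if δ ≤ ρ / 2 ^ j then 1 else 0)) := by
  have hρ0 : ((ENNReal.ofReal ρ)⁻¹) ^ u ≠ 0 :=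
    pow_ne_zero _ (ENNReal.inv_ne_zero.2 ENNReal.ofReal_ne_top)
  rcases lt_or_ge ρ δ with h | h
  · calc ((ENNReal.ofReal δ)⁻¹) ^ u ≤ ((ENNReal.ofReal ρ)⁻¹) ^ u * 1 := by
          rw [mul_one]
          gcongr
      _ ≤ _ := by gcongr; exact le_self_add
  · rcases hδ.eq_or_lt with h0 | h0
    · have htop : ∑' j : ℕ, (2 : ℝ≥0∞) ^ ((j + 1) * u) * (if δ ≤ ρ / 2 ^ j then 1 else 0) = ⊤ := by
        rw [eq_top_iff, ← ENNReal.tsum_const_eq_top_of_ne_zero (α := ℕ) (c := 1) one_ne_zero]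
        apply ENNReal.tsum_le_tsum
        intro j
        rw [if_pos (by rw [← h0]; positivity), mul_one]
        exact one_le_pow₀ (by norm_num)
      rw [htop, add_top, ENNReal.mul_top hρ0]
      exact le_top
    · -- find j with ρ / 2^(j+1) < δ ≤ ρ / 2^j
      obtain ⟨j, hj1, hj2⟩ : ∃ j : ℕ, δ ≤ ρ / 2 ^ j ∧ ρ / 2 ^ (j + 1) < δ := by
        have hex : ∃ n : ℕ, ρ / 2 ^ n < δ := by
          obtain ⟨n, hn⟩ := exists_pow_lt_of_lt_one (show 0 < δ / ρ by positivity)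
            (show (1 / 2 : ℝ) < 1 by norm_num)
          refine ⟨n, ?_⟩
          rw [lt_div_iff₀ hρ] at hn
          calc ρ / 2 ^ n = (1 / 2) ^ n * ρ := by rw [one_div, inv_pow]; ring
            _ < δ := hn
        classical
        have hpos : Nat.find hex ≠ 0 := by
          intro h0'
          have := Nat.find_spec hex
          rw [h0', pow_zero, div_one] at this
          linarith
        obtain ⟨j, hj⟩ := Nat.exists_eq_succ_of_ne_zero hpos
        refine ⟨j, ?_, ?_⟩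
        · have := Nat.find_min hex (m := j) (by omega)
          exact not_lt.1 this
        · have := Nat.find_spec hex
          rw [hj] at this
          exact this
      have hle : ((ENNReal.ofReal δ)⁻¹) ^ u ≤
          ((ENNReal.ofReal ρ)⁻¹) ^ u * (2 : ℝ≥0∞) ^ ((j + 1) * u) := by
        rw [pow_mul, ← mul_pow]
        gcongr
        rw [ENNReal.inv_le_iff_inv_le, ENNReal.mul_inv (Or.inr (by simp)) (Or.inr (by simp)),
          inv_inv]
        have : ENNReal.ofReal (ρ / 2 ^ (j + 1)) = ENNReal.ofReal ρ * ((2 : ℝ≥0∞) ^ (j + 1))⁻¹ := by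
          rw [div_eq_mul_inv, ENNReal.ofReal_mul hρ.le,
            ENNReal.ofReal_inv_of_pos (by positivity), ENNReal.ofReal_pow (by norm_num)]
          norm_num
        rw [← this]
        exact ENNReal.ofReal_le_ofReal hj2.le
      refine hle.trans ?_
      gcongr
      calc (2 : ℝ≥0∞) ^ ((j + 1) * u) =
          (2 : ℝ≥0∞) ^ ((j + 1) * u) * (if δ ≤ ρ / 2 ^ j then 1 else 0) := by
            rw [if_pos hj1, mul_one]
        _ ≤ ∑' j : ℕ, (2 : ℝ≥0∞) ^ ((j + 1) * u) * (if δ ≤ ρ / 2 ^ j then 1 else 0) :=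
            ENNReal.le_tsum j
        _ ≤ _ := le_add_self

/-- TASK P309-AFFINT (uses `affine_mass`). -/
theorem affine_int {d u : ℕ} (hu : 1 ≤ u) {A : AffineSubspace ℝ (E d)}
    (hA : (A : Set (E d)).Nonempty) (hdim : Module.finrank ℝ A.direction ≤ 2 * u - 1)
    {μ : Measure (E d)} {K : ℝ≥0∞} (hK : Frost μ K (4 * u)) (x₀ : E d) {ρ : ℝ} (hρ : 0 < ρ) :
    ∫⁻ s in closedBall x₀ ρ, ((ENNReal.ofReal (infDist s (A : Set (E d))))⁻¹) ^ u ∂μ ≤
      K * ENNReal.ofReal ρ ^ (3 * u) * 2 ^ (11 * u) := by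
  have hρ0 : ENNReal.ofReal ρ ≠ 0 := by simpa using hρ
  have hρt : ENNReal.ofReal ρ ≠ ⊤ := ENNReal.ofReal_ne_top
  have hmeasS : ∀ j : ℕ, MeasurableSet {s : E d | infDist s (A : Set (E d)) ≤ ρ / 2 ^ j} := by
    intro j
    exact (isClosed_le (continuous_infDist_pt _) continuous_const).measurableSet
  have hmf : ∀ j : ℕ, Measurable (fun s : E d => (2 : ℝ≥0∞) ^ ((j + 1) * u) *
      (if infDist s (A : Set (E d)) ≤ ρ / 2 ^ j then 1 else 0)) := by
    intro j
    exact (Measurable.ite (hmeasS j) measurable_const measurable_const).const_mul _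
  have hgeo : ∑' j : ℕ, ((2 : ℝ≥0∞)⁻¹) ^ (j * (u + 1)) ≤ 2 := by
    calc ∑' j : ℕ, ((2 : ℝ≥0∞)⁻¹) ^ (j * (u + 1)) ≤ ∑' j : ℕ, ((2 : ℝ≥0∞)⁻¹) ^ j := by
          apply ENNReal.tsum_le_tsum
          intro j
          apply pow_le_pow_of_le_one zero_le
          · rw [ENNReal.inv_le_one]; norm_num
          · nlinarith
      _ = 2 := ENNReal.tsum_geometric_two
  calc ∫⁻ s in closedBall x₀ ρ, ((ENNReal.ofReal (infDist s (A : Set (E d))))⁻¹) ^ u ∂μ
      ≤ ∫⁻ s in closedBall x₀ ρ, ((ENNReal.ofReal ρ)⁻¹) ^ u *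
          (1 + ∑' j : ℕ, (2 : ℝ≥0∞) ^ ((j + 1) * u) *
            (if infDist s (A : Set (E d)) ≤ ρ / 2 ^ j then 1 else 0)) ∂μ :=
        lintegral_mono fun s => affine_ptwise hu infDist_nonneg hρ
    _ = ((ENNReal.ofReal ρ)⁻¹) ^ u * (μ (closedBall x₀ ρ) + ∑' j : ℕ, (2 : ℝ≥0∞) ^ ((j + 1) * u) *
          μ {s | s ∈ closedBall x₀ ρ ∧ infDist s (A : Set (E d)) ≤ ρ / 2 ^ j}) := by
        rw [lintegral_const_mul _ (by
          exact measurable_const.add (Measurable.tsum hmf)),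
          lintegral_add_left measurable_const, lintegral_tsum (fun j => (hmf j).aemeasurable)]
        congr 2
        · rw [lintegral_one, Measure.restrict_apply_univ]
        · congr 1
          ext j
          rw [lintegral_const_mul _ (Measurable.ite (hmeasS j) measurable_const measurable_const)]
          congr 1
          have : (fun s : E d => if infDist s (A : Set (E d)) ≤ ρ / 2 ^ j then (1 : ℝ≥0∞) else 0) =
              {s : E d | infDist s (A : Set (E d)) ≤ ρ / 2 ^ j}.indicator (fun _ => 1) := by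
            ext s
            simp [Set.indicator_apply]
          rw [this, lintegral_indicator (hmeasS j), lintegral_one, Measure.restrict_apply_univ,
            Measure.restrict_apply (hmeasS j), Set.inter_comm]
          rfl
    _ ≤ ((ENNReal.ofReal ρ)⁻¹) ^ u * (K * ENNReal.ofReal ρ ^ (4 * u) +
          ∑' j : ℕ, (2 : ℝ≥0∞) ^ ((j + 1) * u) * (2 ^ (10 * u - 3) * K * ENNReal.ofReal ρ ^ (4 * u)
            * ((2 : ℝ≥0∞)⁻¹) ^ (j * (2 * u + 1)))) := by
        gcongr with j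
        · exact hK x₀ ρ hρ
        · exact affine_mass hu hA hdim hK x₀ hρ j
    _ = ((ENNReal.ofReal ρ)⁻¹) ^ u * (K * ENNReal.ofReal ρ ^ (4 * u) *
          (1 + 2 ^ (11 * u - 3) * ∑' j : ℕ, ((2 : ℝ≥0∞)⁻¹) ^ (j * (u + 1)))) := by
        rw [mul_add (K * ENNReal.ofReal ρ ^ (4 * u)), mul_one, ← ENNReal.tsum_mul_left,
          ← ENNReal.tsum_mul_left]
        congr 3
        ext j
        have e1 : (2 : ℝ≥0∞) ^ ((j + 1) * u) = 2 ^ (j * u) * 2 ^ u := by
          rw [← pow_add]; congr 1; ring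
        have e2 : (2 : ℝ≥0∞) ^ (11 * u - 3) = 2 ^ u * 2 ^ (10 * u - 3) := by
          rw [← pow_add]; congr 1; omega
        have e3 : ((2 : ℝ≥0∞)⁻¹) ^ (j * (2 * u + 1)) =
            ((2 : ℝ≥0∞)⁻¹) ^ (j * u) * ((2 : ℝ≥0∞)⁻¹) ^ (j * (u + 1)) := by
          rw [← pow_add]; congr 1; ring
        have e4 : (2 : ℝ≥0∞) ^ (j * u) * ((2 : ℝ≥0∞)⁻¹) ^ (j * u) = 1 := by
          rw [← mul_pow, ENNReal.mul_inv_cancel (by norm_num) (by norm_num), one_pow]
        rw [e1, e2, e3]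
        calc 2 ^ (j * u) * 2 ^ u * (2 ^ (10 * u - 3) * K * ENNReal.ofReal ρ ^ (4 * u) *
              (((2 : ℝ≥0∞)⁻¹) ^ (j * u) * ((2 : ℝ≥0∞)⁻¹) ^ (j * (u + 1))))
            = (2 ^ (j * u) * ((2 : ℝ≥0∞)⁻¹) ^ (j * u)) * (K * ENNReal.ofReal ρ ^ (4 * u) *
              (2 ^ u * 2 ^ (10 * u - 3) * ((2 : ℝ≥0∞)⁻¹) ^ (j * (u + 1)))) := by ring
          _ = _ := by rw [e4, one_mul]
    _ ≤ ((ENNReal.ofReal ρ)⁻¹) ^ u * (K * ENNReal.ofReal ρ ^ (4 * u) *
          (1 + 2 ^ (11 * u - 3) * 2)) := by gcongr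
    _ ≤ ((ENNReal.ofReal ρ)⁻¹) ^ u * (K * ENNReal.ofReal ρ ^ (4 * u) * 2 ^ (11 * u)) := by
        gcongr
        have h1 : (2 : ℝ≥0∞) ^ (11 * u) = 2 ^ (11 * u - 3) * 2 + 2 ^ (11 * u - 3) * 6 := by
          rw [← mul_add]
          have : (2 : ℝ≥0∞) + 6 = 2 ^ 3 := by norm_num
          rw [this, ← pow_add]
          congr 1
          omega
        rw [h1, add_comm]
        gcongr
        calc (1 : ℝ≥0∞) = 1 * 1 := by norm_num
          _ ≤ 2 ^ (11 * u - 3) * 6 := by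
            gcongr
            · exact one_le_pow₀ (by norm_num)
            · norm_num
    _ = _ := by
        have e1 : ENNReal.ofReal ρ ^ (4 * u) = ENNReal.ofReal ρ ^ u * ENNReal.ofReal ρ ^ (3 * u) := by
          rw [← pow_add]; congr 1; ring
        have e2 : ((ENNReal.ofReal ρ)⁻¹) ^ u * ENNReal.ofReal ρ ^ u = 1 := by
          rw [← mul_pow, ENNReal.inv_mul_cancel hρ0 hρt, one_pow]
        rw [e1]
        calc ((ENNReal.ofReal ρ)⁻¹) ^ u * (K * (ENNReal.ofReal ρ ^ u * ENNReal.ofReal ρ ^ (3 * u)) *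
              2 ^ (11 * u)) = (((ENNReal.ofReal ρ)⁻¹) ^ u * ENNReal.ofReal ρ ^ u) *
              (K * ENNReal.ofReal ρ ^ (3 * u) * 2 ^ (11 * u)) := by ring
          _ = _ := by rw [e2, one_mul]

end P309
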