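import Vale.Agent.P309.Defs

open MeasureTheory ProbabilityTheory Metric Set
open scoped ENNReal RealInnerProductSpace

namespace P309

/-- The law of a block of `u` independent rows. -/
noncomputable abbrev Gam (u d : ℕ) : Measure (Fin u → E d) :=
  Measure.pi fun _ : Fin u => stdGaussian (E d)

/-- Frostman condition with constant `K` and exponent `a`. -/
def Frost {d : ℕ} (μ : Measure (E d)) (K : ℝ≥0∞) (a : ℕ) : Prop :=
  ∀ (x : E d) (ρ : ℝ), 0 < ρ → μ (closedBall x ρ) ≤ K * ENNReal.ofReal ρ ^ a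

/-- mollified density of the law of `X s`, `s ∼ ν`, at `y`. -/
noncomputable def gmol {u d : ℕ} (ν : Measure (E d)) (η : ℝ) (X : Fin u → E d) (y : Fin u → ℝ) :
    ℝ≥0∞ :=
  ((ENNReal.ofReal η)⁻¹) ^ u * ν {s | ∀ j, ⟪X j, s⟫ - y j ∈ Ico (0 : ℝ) η}

section process

variable {C : Type*} {d : ℕ}

/-- Generic process: the configuration after reading `n` pairs from configuration `c` at time `t`. -/
def runC (st : ℕ → C → E d → ℝ → C) (t : ℕ) (c : C) :
    (n : ℕ) → (Fin n → E d) → (Fin n → ℝ) → C
  | 0, _, _ => c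
  | n + 1, x, y =>
      st (t + n) (runC st t c n (fun j => x j.castSucc) (fun j => y j.castSucc))
        (x (Fin.last n)) (y (Fin.last n))

/-- Value function: `k` samples still to come, at time `t`, in configuration `c`, signal `s`. -/
noncomputable def U (st : ℕ → C → E d → ℝ → C) (f : C → E d → ℝ≥0∞) :
    (k : ℕ) → (t : ℕ) → (c : C) → E d → ℝ≥0∞
  | 0, _, c, s => f c s
  | k + 1, t, c, s => ∫⁻ x, U st f k (t + 1) (st t c x ⟪x, s⟫) s ∂(stdGaussian (E d))

end process

end P309
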