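import Vale.Agent.P309.GStep

open MeasureTheory ProbabilityTheory Metric Set
open scoped ENNReal RealInnerProductSpace

namespace P309

/-- measurability of the small ball probability -/
theorem chain_meas {d : ℕ} (p : ℕ) (η : ℝ) :
    Measurable (fun s : Fin (p + 1) → E d =>
      stdGaussian (E d) {x | ∀ i, |⟪x, s i - s 0⟫| < η}) := by
  have hset : MeasurableSet {q : (Fin (p + 1) → E d) × E d | ∀ i, |⟪q.2, q.1 i - q.1 0⟫| < η} := by
    rw [Set.ofPred_forall]
    refine MeasurableSet.iInter fun i => ?_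
    apply IsOpen.measurableSet
    apply isOpen_lt _ continuous_const
    fun_prop
  exact measurable_measure_prodMk_left hset

theorem chain_inner {d u p : ℕ} (hp : p ≤ 2 * u - 1) (ν : Measure (E d))
    (D : ℝ≥0∞)
    (hD : ∀ A : AffineSubspace ℝ (E d), (A : Set (E d)).Nonempty →
      Module.finrank ℝ A.direction ≤ 2 * u - 1 →
      ∫⁻ s, ((ENNReal.ofReal (infDist s (A : Set (E d))))⁻¹) ^ u ∂ν ≤ D)
    {η : ℝ} (hη : 0 < η) (s : Fin (p + 1) → E d) :
    ∫⁻ a, (stdGaussian (E d) {x | (∀ i, |⟪x, s i - s 0⟫| < η) ∧ |⟪x, a - s 0⟫| < η}) ^ u ∂ν ≤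
      (stdGaussian (E d) {x | ∀ i, |⟪x, s i - s 0⟫| < η}) ^ u * (ENNReal.ofReal η ^ u * D) := by
  set A : AffineSubspace ℝ (E d) := affineSpan ℝ (Set.range s) with hA
  have hs0 : s 0 ∈ A := subset_affineSpan ℝ _ ⟨0, rfl⟩
  have hAne : (A : Set (E d)).Nonempty := ⟨s 0, hs0⟩
  have hAdim : Module.finrank ℝ A.direction ≤ 2 * u - 1 := by
    rw [hA, direction_affineSpan]
    exact (finrank_vectorSpan_range_le ℝ s (by simp)).trans hp
  set S : Set (E d) := {x | ∀ i, |⟪x, s i - s 0⟫| < η} with hS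
  have hSm : MeasurableSet S := by
    rw [hS, Set.ofPred_forall]
    refine MeasurableSet.iInter fun i => ?_
    apply IsOpen.measurableSet
    apply isOpen_lt _ continuous_const
    fun_prop
  have hmem : ∀ i, s i - s 0 ∈ A.direction := by
    intro i
    rw [← vsub_eq_sub]
    exact AffineSubspace.vsub_mem_direction (subset_affineSpan ℝ _ ⟨i, rfl⟩) hs0
  have hstep : ∀ a, stdGaussian (E d) {x | (∀ i, |⟪x, s i - s 0⟫| < η) ∧ |⟪x, a - s 0⟫| < η} *
      ENNReal.ofReal (infDist a (A : Set (E d))) ≤ stdGaussian (E d) S * ENNReal.ofReal η := by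
    intro a
    have h := gauss_step A.direction (a - s 0) hSm
      (by
        intro x y hxy hx i
        rw [← hxy _ (hmem i)]
        exact hx i) hη
    have hdist : infDist a (A : Set (E d)) = infDist (a - s 0) (A.direction : Set (E d)) := by
      have h1 : (A : Set (E d)) = (fun w => w + s 0) '' (A.direction : Set (E d)) := by
        ext w
        constructor
        · intro hw
          refine ⟨w - s 0, ?_, by simp⟩
          rw [← vsub_eq_sub]
          exact AffineSubspace.vsub_mem_direction hw hs0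
        · rintro ⟨v, hv, rfl⟩
          exact AffineSubspace.vadd_mem_of_mem_direction hv hs0
      rw [h1]
      have h2 : a = (fun w => w + s 0) (a - s 0) := by simp
      conv_lhs => rw [h2]
      exact infDist_image (IsometryEquiv.addRight (s 0)).isometry
    rw [hdist]
    exact h
  have hpow : ∀ a, (stdGaussian (E d) {x | (∀ i, |⟪x, s i - s 0⟫| < η) ∧ |⟪x, a - s 0⟫| < η}) ^ u ≤
      (stdGaussian (E d) S) ^ u * ENNReal.ofReal η ^ u *
        ((ENNReal.ofReal (infDist a (A : Set (E d))))⁻¹) ^ u := by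
    intro a
    rw [← mul_pow, ← mul_pow]
    gcongr
    by_cases h0 : stdGaussian (E d) S = 0
    · have : stdGaussian (E d) {x | (∀ i, |⟪x, s i - s 0⟫| < η) ∧ |⟪x, a - s 0⟫| < η} = 0 :=
        measure_mono_null (fun x hx => hx.1) h0
      rw [this]; exact zero_le
    · by_cases h1 : ENNReal.ofReal (infDist a (A : Set (E d))) = 0
      · rw [h1, ENNReal.inv_zero, ENNReal.mul_top]
        · exact le_top
        · apply mul_ne_zero h0
          simpa using hη
      · rw [← div_eq_mul_inv, ENNReal.le_div_iff_mul_le (Or.inl h1) (Or.inl ENNReal.ofReal_ne_top)]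
        exact hstep a
  calc ∫⁻ a, (stdGaussian (E d) {x | (∀ i, |⟪x, s i - s 0⟫| < η) ∧ |⟪x, a - s 0⟫| < η}) ^ u ∂ν
      ≤ ∫⁻ a, (stdGaussian (E d) S) ^ u * ENNReal.ofReal η ^ u *
        ((ENNReal.ofReal (infDist a (A : Set (E d))))⁻¹) ^ u ∂ν := lintegral_mono hpow
    _ = (stdGaussian (E d) S) ^ u * ENNReal.ofReal η ^ u *
        ∫⁻ a, ((ENNReal.ofReal (infDist a (A : Set (E d))))⁻¹) ^ u ∂ν := by
        rw [lintegral_const_mul]
        have : Continuous fun a : E d => infDist a (A : Set (E d)) := continuous_infDist_pt _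
        have := this.measurable
        fun_prop
    _ ≤ (stdGaussian (E d) S) ^ u * ENNReal.ofReal η ^ u * D := by
        gcongr
        exact hD A hAne hAdim
    _ = _ := by ring

theorem chain_aux {d u : ℕ} (hu : 1 ≤ u) (ν : Measure (E d)) [IsFiniteMeasure ν] (D : ℝ≥0∞)
    (hD : ∀ A : AffineSubspace ℝ (E d), (A : Set (E d)).Nonempty →
      Module.finrank ℝ A.direction ≤ 2 * u - 1 →
      ∫⁻ s, ((ENNReal.ofReal (infDist s (A : Set (E d))))⁻¹) ^ u ∂ν ≤ D)
    {η : ℝ} (hη : 0 < η) (p : ℕ) (hp : p ≤ 2 * u) :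
    ∫⁻ s : Fin (p + 1) → E d,
        (stdGaussian (E d) {x | ∀ i, |⟪x, s i - s 0⟫| < η}) ^ u ∂(Measure.pi fun _ => ν) ≤
      ν univ * (ENNReal.ofReal η ^ u * D) ^ p := by
  induction p with
  | zero =>
    calc _ ≤ ∫⁻ s : Fin (0 + 1) → E d, 1 ∂(Measure.pi fun _ => ν) := by
            apply lintegral_mono
            intro s
            exact pow_le_one₀ zero_le prob_le_one
      _ = _ := by
          rw [lintegral_one, pow_zero, mul_one, Measure.pi_univ]
          simp
  | succ p ih =>
    have ih' := ih (by omega)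
    have hmp := (measurePreserving_piFinSuccAbove (fun _ : Fin (p + 1 + 1) => ν)
      (Fin.last (p + 1))).symm
    rw [← hmp.lintegral_comp ((chain_meas (p + 1) η).pow_const u)]
    rw [lintegral_prod_symm]
    · have hrw : ∀ (y : Fin (p + 1) → E d) (a : E d),
          {x : E d | ∀ i : Fin (p + 1 + 1), |⟪x, (MeasurableEquiv.piFinSuccAbove
            (fun _ : Fin (p + 1 + 1) => E d) (Fin.last (p + 1))).symm (a, y) i -
            (MeasurableEquiv.piFinSuccAbove (fun _ : Fin (p + 1 + 1) => E d)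
              (Fin.last (p + 1))).symm (a, y) 0⟫| < η} =
          {x | (∀ i, |⟪x, y i - y 0⟫| < η) ∧ |⟪x, a - y 0⟫| < η} := by
        intro y a
        have h1 : ∀ i : Fin (p + 1), (MeasurableEquiv.piFinSuccAbove
            (fun _ : Fin (p + 1 + 1) => E d) (Fin.last (p + 1))).symm (a, y) i.castSucc = y i := by
          intro i
          simp [MeasurableEquiv.piFinSuccAbove]
        have h2 : (MeasurableEquiv.piFinSuccAbove
            (fun _ : Fin (p + 1 + 1) => E d) (Fin.last (p + 1))).symm (a, y) (Fin.last (p + 1))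
            = a := by
          simp [MeasurableEquiv.piFinSuccAbove]
        have h3 : (MeasurableEquiv.piFinSuccAbove
            (fun _ : Fin (p + 1 + 1) => E d) (Fin.last (p + 1))).symm (a, y) 0 = y 0 := h1 0
        ext x
        simp only [Set.mem_ofPred_eq, Fin.forall_fin_succ', h1, h2, h3]
      calc _ ≤ ∫⁻ y : Fin (p + 1) → E d, (stdGaussian (E d) {x | ∀ i, |⟪x, y i - y 0⟫| < η}) ^ u *
            (ENNReal.ofReal η ^ u * D) ∂(Measure.pi fun _ => ν) := by
              apply lintegral_mono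
              intro y
              simp only [hrw]
              exact chain_inner (by omega) ν D hD hη y
        _ = (∫⁻ y : Fin (p + 1) → E d, (stdGaussian (E d) {x | ∀ i, |⟪x, y i - y 0⟫| < η}) ^ u
              ∂(Measure.pi fun _ => ν)) * (ENNReal.ofReal η ^ u * D) := by
              rw [lintegral_mul_const _ ((chain_meas p η).pow_const u)]
        _ ≤ (ν univ * (ENNReal.ofReal η ^ u * D) ^ p) * (ENNReal.ofReal η ^ u * D) := by
              gcongr
        _ = _ := by rw [pow_succ, mul_assoc]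
    · exact (((chain_meas (p + 1) η).pow_const u).comp
        (MeasurableEquiv.piFinSuccAbove (fun _ : Fin (p + 1 + 1) => E d)
          (Fin.last (p + 1))).symm.measurable).aemeasurable

/-- TASK P309-CHAIN (uses `gauss_step`). -/
theorem chain {d u : ℕ} (hu : 1 ≤ u) (ν : Measure (E d)) [IsFiniteMeasure ν] (D : ℝ≥0∞)
    (hD : ∀ A : AffineSubspace ℝ (E d), (A : Set (E d)).Nonempty →
      Module.finrank ℝ A.direction ≤ 2 * u - 1 →
      ∫⁻ s, ((ENNReal.ofReal (infDist s (A : Set (E d))))⁻¹) ^ u ∂ν ≤ D)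
    {η : ℝ} (hη : 0 < η) :
    ∫⁻ s : Fin (2 * u + 1) → E d,
        (stdGaussian (E d) {x | ∀ i, |⟪x, s i - s 0⟫| < η}) ^ u ∂(Measure.pi fun _ => ν) ≤
      ν univ * (ENNReal.ofReal η ^ u * D) ^ (2 * u) :=
  chain_aux hu ν D hD hη (2 * u) le_rfl

end P309
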