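import Vale.Agent.P309.Basic

open MeasureTheory ProbabilityTheory Metric Set
open scoped ENNReal RealInnerProductSpace

namespace P309

/-- triples `((X, s), y)` with `y` in the box below `X s` -/
def BxT (u d : ℕ) (η : ℝ) : Set (((Fin u → E d) × E d) × (Fin u → ℝ)) :=
  {p | ∀ j, ⟪p.1.1 j, p.1.2⟫ - p.2 j ∈ Ico (0 : ℝ) η}

lemma measurableSet_BxT (u d : ℕ) (η : ℝ) : MeasurableSet (BxT u d η) := by
  unfold BxT
  rw [ofPred_forall]
  refine MeasurableSet.iInter (fun j => ?_)
  have hc : Continuous (fun p : ((Fin u → E d) × E d) × (Fin u → ℝ) =>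
      ⟪p.1.1 j, p.1.2⟫ - p.2 j) := by fun_prop
  exact hc.measurable measurableSet_Ico

/-- same set, other order of the variables -/
lemma measurableSet_BxS (u d : ℕ) (η : ℝ) :
    MeasurableSet {p : ((Fin u → E d) × (Fin u → ℝ)) × E d |
      ∀ j, ⟪p.1.1 j, p.2⟫ - p.1.2 j ∈ Ico (0 : ℝ) η} := by
  rw [ofPred_forall]
  refine MeasurableSet.iInter (fun j => ?_)
  have hc : Continuous (fun p : ((Fin u → E d) × (Fin u → ℝ)) × E d =>
      ⟪p.1.1 j, p.2⟫ - p.1.2 j) := by fun_prop
  exact hc.measurable measurableSet_Ico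

lemma measurable_gmol {u d : ℕ} (ν : Measure (E d)) [IsFiniteMeasure ν] (η : ℝ) :
    Measurable (fun z : (Fin u → E d) × (Fin u → ℝ) => gmol ν η z.1 z.2) := by
  unfold gmol
  exact (measurable_measure_prodMk_left (ν := ν) (measurableSet_BxS u d η)).const_mul _

/-- Hölder's inequality for an indicator function -/
lemma holder_ind {α : Type*} [MeasurableSpace α] (m : Measure α) {A : Set α}
    (hA : MeasurableSet A) {g : α → ℝ≥0∞} (hg : Measurable g) (q : ℕ) :
    (∫⁻ z, A.indicator (fun _ => (1 : ℝ≥0∞)) z * g z ∂m) ^ (q + 1) ≤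
      (∫⁻ z, g z ^ (q + 1) ∂m) * m A ^ q := by
  rcases Nat.eq_zero_or_pos q with h0 | hq
  · subst h0
    simp only [zero_add, pow_one, pow_zero, mul_one]
    refine lintegral_mono (fun z => ?_)
    by_cases hz : z ∈ A <;> simp [hz]
  · have hq' : (0 : ℝ) < q := by exact_mod_cast hq
    have hconj : (((q : ℝ) + 1) / q).HolderConjugate ((q : ℝ) + 1) := by
      rw [Real.holderConjugate_iff]
      constructor
      · rw [lt_div_iff₀ hq']; linarith
      · field_simp
    have h := ENNReal.lintegral_mul_le_Lp_mul_Lq m hconj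
      (f := A.indicator (fun _ => (1 : ℝ≥0∞))) (g := g)
      (measurable_const.indicator hA).aemeasurable hg.aemeasurable
    have e1 : (∫⁻ a, (A.indicator (fun _ => (1 : ℝ≥0∞)) a) ^ (((q : ℝ) + 1) / q) ∂m) = m A := by
      rw [← lintegral_indicator_one hA]
      refine lintegral_congr (fun a => ?_)
      have hpos : (0 : ℝ) < ((q : ℝ) + 1) / q := by positivity
      by_cases ha : a ∈ A
      · simp [ha]
      · simp [ha, hpos]
    have e2 : (∫⁻ a, (g a) ^ ((q : ℝ) + 1) ∂m) = ∫⁻ z, g z ^ (q + 1) ∂m := by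
      refine lintegral_congr (fun a => ?_)
      rw [← ENNReal.rpow_natCast]
      push_cast
      rfl
    rw [e1, e2] at h
    have h2 := pow_le_pow_left' h (q + 1)
    refine le_trans (le_of_eq ?_) (h2.trans (le_of_eq ?_))
    · rfl
    · rw [mul_pow, mul_comm]
      congr 1
      · rw [← ENNReal.rpow_natCast, ← ENNReal.rpow_mul]
        push_cast
        rw [one_div, inv_mul_cancel₀ (by positivity), ENNReal.rpow_one]
      · rw [← ENNReal.rpow_natCast, ← ENNReal.rpow_mul, ← ENNReal.rpow_natCast]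
        congr 1
        push_cast
        field_simp

/-- Tonelli for the box averages -/
lemma box_tonelli {d u : ℕ} (ν : Measure (E d)) [IsFiniteMeasure ν]
    {A : Set ((Fin u → E d) × (Fin u → ℝ))} (hA : MeasurableSet A) (η : ℝ) :
    ∫⁻ p, ((ENNReal.ofReal η)⁻¹) ^ u *
        (volume : Measure (Fin u → ℝ)) (Prod.mk p ⁻¹' (BxT u d η ∩ {p | (p.1.1, p.2) ∈ A}))
        ∂((Gam u d).prod ν) =
      ∫⁻ z, A.indicator (fun _ => (1 : ℝ≥0∞)) z * gmol ν η z.1 z.2
        ∂((Gam u d).prod (volume : Measure (Fin u → ℝ))) := by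
  have hA' : MeasurableSet {p : ((Fin u → E d) × E d) × (Fin u → ℝ) | (p.1.1, p.2) ∈ A} := by
    have hm : Measurable (fun p : ((Fin u → E d) × E d) × (Fin u → ℝ) => (p.1.1, p.2)) := by
      fun_prop
    exact hm hA
  have hT := (measurableSet_BxT u d η).inter hA'
  have hmR : Measurable (fun z : (Fin u → E d) × (Fin u → ℝ) =>
      A.indicator (fun _ => (1 : ℝ≥0∞)) z * gmol ν η z.1 z.2) :=
    (measurable_const.indicator hA).mul (measurable_gmol ν η)
  rw [lintegral_prod _ (((measurable_measure_prodMk_left hT).const_mul _).aemeasurable),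
    lintegral_prod _ hmR.aemeasurable]
  refine lintegral_congr (fun X => ?_)
  set T : Set (E d × (Fin u → ℝ)) :=
    (fun p : E d × (Fin u → ℝ) => ((X, p.1), p.2)) ⁻¹'
      (BxT u d η ∩ {p | (p.1.1, p.2) ∈ A}) with hTd
  have hTm : MeasurableSet T := by
    have hm : Measurable (fun p : E d × (Fin u → ℝ) => ((X, p.1), p.2)) := by fun_prop
    exact hm hT
  have h1 := Measure.prod_apply (μ := ν) (ν := (volume : Measure (Fin u → ℝ))) hTm
  have h2 := Measure.prod_apply_symm (μ := ν) (ν := (volume : Measure (Fin u → ℝ))) hTm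
  rw [lintegral_const_mul]
  · have e1 : (∫⁻ s, (volume : Measure (Fin u → ℝ))
        (Prod.mk (X, s) ⁻¹' (BxT u d η ∩ {p | (p.1.1, p.2) ∈ A})) ∂ν) =
        (ν.prod volume) T := by
      rw [h1]; rfl
    have e2 : (∫⁻ y, A.indicator (fun _ => (1 : ℝ≥0∞)) (X, y) * gmol ν η (X, y).1 (X, y).2) =
        ((ENNReal.ofReal η)⁻¹) ^ u * (ν.prod volume) T := by
      rw [h2, ← lintegral_const_mul]
      · refine lintegral_congr (fun y => ?_)
        unfold gmol
        by_cases hy : (X, y) ∈ A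
        · simp only [indicator_of_mem hy, one_mul]
          congr 2
          ext s
          simp [hTd, BxT, hy]
        · simp only [indicator_of_notMem hy, zero_mul]
          symm
          have : ((fun x => (x, y)) ⁻¹' T) = ∅ := by
            ext s
            simp [hTd, hy]
          rw [this]; simp
      · exact measurable_measure_prodMk_right hTm
    rw [e1, e2]
  · exact measurable_measure_prodMk_left hTm

lemma box_eventually_one {d u : ℕ} {Uo : Set ((Fin u → E d) × (Fin u → ℝ))} (hU : IsOpen Uo)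
    {p : (Fin u → E d) × E d} (hp : (p.1, fun j => ⟪p.1 j, p.2⟫) ∈ Uo) :
    ∀ᶠ n : ℕ in Filter.atTop, ((ENNReal.ofReal (1 / ((n : ℝ) + 1)))⁻¹) ^ u *
      (volume : Measure (Fin u → ℝ)) (Prod.mk p ⁻¹'
        (BxT u d (1 / ((n : ℝ) + 1)) ∩ {p | (p.1.1, p.2) ∈ Uo})) = 1 := by
  set y0 : Fin u → ℝ := fun j => ⟪p.1 j, p.2⟫ with hy0
  have hopen : IsOpen {y : Fin u → ℝ | (p.1, y) ∈ Uo} :=
    hU.preimage (by fun_prop : Continuous (fun y : Fin u → ℝ => (p.1, y)))
  obtain ⟨ε, hε, hball⟩ := Metric.isOpen_iff.mp hopen y0 hp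
  have hlim := tendsto_one_div_add_atTop_nhds_zero_nat (𝕜 := ℝ)
  filter_upwards [hlim.eventually (gt_mem_nhds hε)] with n hn
  set η : ℝ := 1 / ((n : ℝ) + 1) with hη
  have hηp : 0 < η := by rw [hη]; positivity
  have hset : (Prod.mk p ⁻¹' (BxT u d η ∩ {p | (p.1.1, p.2) ∈ Uo})) =
      univ.pi (fun j => Ioc (y0 j - η) (y0 j)) := by
    ext y
    simp only [BxT, mem_preimage, mem_inter_iff, mem_ofPred_eq, mem_Ico, mem_pi, mem_univ,
      forall_true_left, mem_Ioc]
    constructor
    · rintro ⟨h, -⟩ j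
      have := h j
      constructor
      · simp only [hy0]; linarith [this.2]
      · simp only [hy0]; linarith [this.1]
    · intro h
      refine ⟨fun j => ?_, ?_⟩
      · have := h j
        simp only [hy0] at this
        constructor <;> linarith [this.1, this.2]
      · apply hball
        rw [mem_ball, dist_pi_lt_iff hε]
        intro j
        have := h j
        rw [Real.dist_eq, abs_lt]
        constructor <;> linarith [this.1, this.2]
  rw [hset, Real.volume_pi_Ioc]
  have : ∀ j : Fin u, ENNReal.ofReal (y0 j - (y0 j - η)) = ENNReal.ofReal η := by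
    intro j; congr 1; ring
  simp only [this, Finset.prod_const, Finset.card_univ, Fintype.card_fin]
  rw [← mul_pow, ENNReal.inv_mul_cancel, one_pow]
  · simpa using hηp
  · exact ENNReal.ofReal_ne_top

/-- the case of an open set -/
lemma dens_open {d u : ℕ} (ν : Measure (E d)) [IsFiniteMeasure ν] (q : ℕ) (G : ℝ≥0∞)
    (hG : ∀ η : ℝ, 0 < η →
      ∫⁻ X : Fin u → E d, (∫⁻ y : Fin u → ℝ, (gmol ν η X y) ^ (q + 1)) ∂(Gam u d) ≤ G)
    {Uo : Set ((Fin u → E d) × (Fin u → ℝ))} (hU : IsOpen Uo) :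
    (∫⁻ X, ν {s | (X, fun j => ⟪X j, s⟫) ∈ Uo} ∂(Gam u d)) ^ (q + 1) ≤
      G * (((Gam u d).prod (volume : Measure (Fin u → ℝ))) Uo) ^ q := by
  set lamU := ((Gam u d).prod (volume : Measure (Fin u → ℝ))) Uo with hlamU
  have hUm : MeasurableSet Uo := hU.measurableSet
  set V : Set ((Fin u → E d) × E d) := {p | (p.1, fun j => ⟪p.1 j, p.2⟫) ∈ Uo} with hV
  have hVm : MeasurableSet V := by
    have hc : Continuous (fun p : (Fin u → E d) × E d =>
        ((p.1, fun j => ⟪p.1 j, p.2⟫) : (Fin u → E d) × (Fin u → ℝ))) := by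
      refine Continuous.prodMk continuous_fst (continuous_pi (fun j => ?_))
      fun_prop
    exact (hU.preimage hc).measurableSet
  have e0 : (∫⁻ X, ν {s | (X, fun j => ⟪X j, s⟫) ∈ Uo} ∂(Gam u d)) = ((Gam u d).prod ν) V := by
    rw [Measure.prod_apply hVm]; rfl
  rw [e0]
  set h : ℕ → ((Fin u → E d) × E d) → ℝ≥0∞ := fun n p =>
    ((ENNReal.ofReal (1 / ((n : ℝ) + 1)))⁻¹) ^ u *
      (volume : Measure (Fin u → ℝ)) (Prod.mk p ⁻¹'
        (BxT u d (1 / ((n : ℝ) + 1)) ∩ {p | (p.1.1, p.2) ∈ Uo})) with hh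
  have hA' : MeasurableSet {p : ((Fin u → E d) × E d) × (Fin u → ℝ) | (p.1.1, p.2) ∈ Uo} := by
    have hm : Measurable (fun p : ((Fin u → E d) × E d) × (Fin u → ℝ) => (p.1.1, p.2)) := by
      fun_prop
    exact hm hUm
  have hmeas : ∀ n, Measurable (h n) := fun n =>
    (measurable_measure_prodMk_left ((measurableSet_BxT u d _).inter hA')).const_mul _
  have hB : ∀ n, (∫⁻ p, h n p ∂((Gam u d).prod ν)) ^ (q + 1) ≤ G * lamU ^ q := by
    intro n
    have hη : (0 : ℝ) < 1 / ((n : ℝ) + 1) := by positivity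
    rw [hh]
    simp only
    rw [box_tonelli ν hUm]
    refine (holder_ind _ hUm (measurable_gmol ν _) q).trans ?_
    gcongr
    rw [lintegral_prod _ ((measurable_gmol ν _).pow_const _).aemeasurable]
    exact hG _ hη
  have hfat : ((Gam u d).prod ν) V ≤
      Filter.liminf (fun n => ∫⁻ p, h n p ∂((Gam u d).prod ν)) Filter.atTop := by
    refine le_trans ?_ (lintegral_liminf_le hmeas)
    rw [← lintegral_indicator_one hVm]
    refine lintegral_mono (fun p => ?_)
    by_cases hp : p ∈ V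
    · rw [indicator_of_mem hp]
      have hev := box_eventually_one hU hp
      have : Filter.liminf (fun n => h n p) Filter.atTop = 1 := by
        have ht : Filter.Tendsto (fun n => h n p) Filter.atTop (nhds 1) :=
          tendsto_const_nhds.congr' (hev.mono (fun n hn => hn.symm))
        exact ht.liminf_eq
      rw [this]; rfl
    · rw [indicator_of_notMem hp]; exact zero_le
  have hroot : ∀ x y : ℝ≥0∞, x ^ (q + 1) ≤ y → x ≤ y ^ ((1 : ℝ) / ((q : ℝ) + 1)) := by
    intro x y hxy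
    have h2 := ENNReal.rpow_le_rpow hxy (by positivity : (0 : ℝ) ≤ 1 / ((q : ℝ) + 1))
    have e : (x ^ (q + 1)) ^ ((1 : ℝ) / ((q : ℝ) + 1)) = x := by
      rw [← ENNReal.rpow_natCast, ← ENNReal.rpow_mul]
      push_cast
      rw [mul_one_div_cancel (by positivity), ENNReal.rpow_one]
    rwa [e] at h2
  have hle : ((Gam u d).prod ν) V ≤ (G * lamU ^ q) ^ ((1 : ℝ) / ((q : ℝ) + 1)) := by
    refine hfat.trans ?_
    refine Filter.liminf_le_of_frequently_le' ?_
    exact Filter.Frequently.of_forall (fun n => hroot _ _ (hB n))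
  refine (pow_le_pow_left' hle (q + 1)).trans (le_of_eq ?_)
  rw [← ENNReal.rpow_natCast, ← ENNReal.rpow_mul]
  push_cast
  rw [one_div_mul_cancel (by positivity), ENNReal.rpow_one]

/-- TASK P309-DENS: from moment bounds of the mollified densities to a bound for arbitrary
measurable sets of pairs `(X, y)`. -/
theorem dens {d u : ℕ} (ν : Measure (E d)) [IsFiniteMeasure ν] (q : ℕ) (G : ℝ≥0∞)
    (hG : ∀ η : ℝ, 0 < η →
      ∫⁻ X : Fin u → E d, (∫⁻ y : Fin u → ℝ, (gmol ν η X y) ^ (q + 1)) ∂(Gam u d) ≤ G)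
    (hGt : G ≠ ⊤)
    {A : Set ((Fin u → E d) × (Fin u → ℝ))} (_hA : MeasurableSet A)
    (hfin : ((Gam u d).prod (volume : Measure (Fin u → ℝ))) A ≠ ⊤) :
    (∫⁻ X, ν {s | (X, fun j => ⟪X j, s⟫) ∈ A} ∂(Gam u d)) ^ (q + 1) ≤
      G * (((Gam u d).prod (volume : Measure (Fin u → ℝ))) A) ^ q := by
  set a := ((Gam u d).prod (volume : Measure (Fin u → ℝ))) A with ha
  have key : ∀ n : ℕ, (∫⁻ X, ν {s | (X, fun j => ⟪X j, s⟫) ∈ A} ∂(Gam u d)) ^ (q + 1) ≤
      G * (a + (n : ℝ≥0∞)⁻¹) ^ q := by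
    intro n
    have hlt : a < a + (n : ℝ≥0∞)⁻¹ :=
      ENNReal.lt_add_right hfin (ENNReal.inv_ne_zero.mpr (ENNReal.natCast_ne_top n))
    obtain ⟨Uo, hAU, hUo, hUr⟩ := A.exists_isOpen_lt_of_lt _ hlt
    refine le_trans ?_ ((dens_open ν q G hG hUo).trans ?_)
    · refine pow_le_pow_left' (lintegral_mono (fun X => measure_mono ?_)) _
      intro s hs
      exact hAU hs
    · gcongr
  have hlim : Filter.Tendsto (fun n : ℕ => G * (a + (n : ℝ≥0∞)⁻¹) ^ q) Filter.atTop
      (nhds (G * (a + 0) ^ q)) := by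
    refine ENNReal.Tendsto.const_mul ?_ (Or.inr hGt)
    exact ((ENNReal.continuous_pow q).tendsto _).comp
      (tendsto_const_nhds.add ENNReal.tendsto_inv_nat_nhds_zero)
  rw [add_zero] at hlim
  exact ge_of_tendsto' hlim key

end P309
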