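import Vale.Agent.P309.Basic

open MeasureTheory ProbabilityTheory Metric Set
open scoped ENNReal RealInnerProductSpace

namespace P309

/-- the volume of the set of admissible `y` for fixed rows and signals -/
theorem moll_vol {d u q : ℕ} {η : ℝ} (X : Fin u → E d) (σ : Fin (q + 1) → E d) :
    (volume {y : Fin u → ℝ | ∀ i j, ⟪X j, σ i⟫ - y j ∈ Ico (0 : ℝ) η}) ≤
      Set.indicator {σ : Fin (q + 1) → E d | ∀ j i, |⟪X j, σ i - σ 0⟫| < η}
        (fun _ => ENNReal.ofReal η ^ u) σ := by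
  by_cases h : ∀ j i, |⟪X j, σ i - σ 0⟫| < η
  · rw [Set.indicator_of_mem (show σ ∈ {σ : Fin (q + 1) → E d | ∀ j i, |⟪X j, σ i - σ 0⟫| < η} from h)]
    have hsub : {y : Fin u → ℝ | ∀ i j, ⟪X j, σ i⟫ - y j ∈ Ico (0 : ℝ) η} ⊆
        Set.univ.pi (fun j => Ioc (⟪X j, σ 0⟫ - η) ⟪X j, σ 0⟫) := by
      intro y hy j _
      have := hy 0 j
      rw [Set.mem_Ico] at this
      constructor
      · linarith [this.2]
      · linarith [this.1]
    refine (measure_mono hsub).trans ?_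
    rw [volume_pi_pi]
    simp only [Real.volume_Ioc, sub_sub_cancel, Finset.prod_const, Finset.card_univ,
      Fintype.card_fin]
    exact le_rfl
  · have hempty : {y : Fin u → ℝ | ∀ i j, ⟪X j, σ i⟫ - y j ∈ Ico (0 : ℝ) η} = ∅ := by
      rw [Set.eq_empty_iff_forall_notMem]
      intro y hy
      apply h
      intro j i
      have h1 := hy i j
      have h2 := hy 0 j
      rw [Set.mem_Ico] at h1 h2
      rw [inner_sub_right, abs_lt]
      constructor <;> linarith [h1.1, h1.2, h2.1, h2.2]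
    rw [hempty, measure_empty]
    exact zero_le

/-- TASK P309-MOLL: the `(q+1)`-st moment of the mollified density. -/
theorem moll {d u : ℕ} (ν : Measure (E d)) [IsFiniteMeasure ν] (q : ℕ) (G : ℝ≥0∞)
    {η : ℝ} (hη : 0 < η)
    (hG : ∫⁻ s : Fin (q + 1) → E d,
        (stdGaussian (E d) {x | ∀ i, |⟪x, s i - s 0⟫| < η}) ^ u ∂(Measure.pi fun _ => ν) ≤
      G * (ENNReal.ofReal η ^ u) ^ q) :
    ∫⁻ X : Fin u → E d, (∫⁻ y : Fin u → ℝ, (gmol ν η X y) ^ (q + 1)) ∂(Gam u d) ≤ G := by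
  set κ : Measure (Fin (q + 1) → E d) := Measure.pi fun _ => ν with hκ
  set c : ℝ≥0∞ := (((ENNReal.ofReal η)⁻¹) ^ u) ^ (q + 1) with hc
  have hη0 : ENNReal.ofReal η ≠ 0 := by
    rw [Ne, ENNReal.ofReal_eq_zero]
    linarith
  -- step 1: the power of the density
  have h1 : ∀ (X : Fin u → E d) (y : Fin u → ℝ), (gmol ν η X y) ^ (q + 1) =
      c * κ {σ : Fin (q + 1) → E d | ∀ i j, ⟪X j, σ i⟫ - y j ∈ Ico (0 : ℝ) η} := by
    intro X y
    unfold gmol
    rw [mul_pow]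
    congr 1
    have : {σ : Fin (q + 1) → E d | ∀ i j, ⟪X j, σ i⟫ - y j ∈ Ico (0 : ℝ) η} =
        Set.univ.pi (fun _ => {s : E d | ∀ j, ⟪X j, s⟫ - y j ∈ Ico (0 : ℝ) η}) := by
      ext σ
      simp [Set.mem_pi]
    rw [this, hκ, Measure.pi_pi]
    simp
  -- step 2: integrate over y
  have hmeas : ∀ X : Fin u → E d, MeasurableSet {p : (Fin u → ℝ) × (Fin (q + 1) → E d) |
      ∀ i j, ⟪X j, p.2 i⟫ - p.1 j ∈ Ico (0 : ℝ) η} := by
    intro X
    have : {p : (Fin u → ℝ) × (Fin (q + 1) → E d) |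
      ∀ i j, ⟪X j, p.2 i⟫ - p.1 j ∈ Ico (0 : ℝ) η} = ⋂ i, ⋂ j,
        (fun p : (Fin u → ℝ) × (Fin (q + 1) → E d) => ⟪X j, p.2 i⟫ - p.1 j) ⁻¹' Ico (0 : ℝ) η := by
      ext p
      simp
    rw [this]
    refine MeasurableSet.iInter fun i => MeasurableSet.iInter fun j => ?_
    refine measurableSet_Ico.preimage (Continuous.measurable ?_)
    fun_prop
  have h2 : ∀ X : Fin u → E d, ∫⁻ y : Fin u → ℝ, (gmol ν η X y) ^ (q + 1) ≤
      c * (ENNReal.ofReal η ^ u * κ {σ : Fin (q + 1) → E d | ∀ j i, |⟪X j, σ i - σ 0⟫| < η}) := by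
    intro X
    have hB : MeasurableSet {σ : Fin (q + 1) → E d | ∀ j i, |⟪X j, σ i - σ 0⟫| < η} := by
      have : {σ : Fin (q + 1) → E d | ∀ j i, |⟪X j, σ i - σ 0⟫| < η} = ⋂ j, ⋂ i,
          {σ : Fin (q + 1) → E d | |⟪X j, σ i - σ 0⟫| < η} := by
        ext p
        simp
      rw [this]
      refine MeasurableSet.iInter fun j => MeasurableSet.iInter fun i => ?_
      refine measurableSet_lt (Continuous.measurable ?_) measurable_const
      fun_prop
    simp only [h1]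
    rw [lintegral_const_mul]
    · refine mul_le_mul_right ?_ c
      have e1 := Measure.prod_apply (μ := (volume : Measure (Fin u → ℝ))) (ν := κ) (hmeas X)
      have e2 := Measure.prod_apply_symm (μ := (volume : Measure (Fin u → ℝ))) (ν := κ) (hmeas X)
      have e3 : ∫⁻ y : Fin u → ℝ, κ {σ : Fin (q + 1) → E d | ∀ i j, ⟪X j, σ i⟫ - y j ∈ Ico (0 : ℝ) η} =
          ∫⁻ σ, volume {y : Fin u → ℝ | ∀ i j, ⟪X j, σ i⟫ - y j ∈ Ico (0 : ℝ) η} ∂κ :=
        e1.symm.trans e2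
      rw [e3]
      calc ∫⁻ σ, volume {y : Fin u → ℝ | ∀ i j, ⟪X j, σ i⟫ - y j ∈ Ico (0 : ℝ) η} ∂κ
          ≤ ∫⁻ σ, Set.indicator {σ : Fin (q + 1) → E d | ∀ j i, |⟪X j, σ i - σ 0⟫| < η}
            (fun _ => ENNReal.ofReal η ^ u) σ ∂κ := lintegral_mono fun σ => moll_vol X σ
        _ = ENNReal.ofReal η ^ u * κ {σ : Fin (q + 1) → E d | ∀ j i, |⟪X j, σ i - σ 0⟫| < η} := by
          rw [lintegral_indicator hB, lintegral_const, Measure.restrict_apply_univ]
    · exact measurable_measure_prodMk_left (hmeas X)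
  -- step 3: integrate over X
  have hmeas2 : MeasurableSet {p : (Fin u → E d) × (Fin (q + 1) → E d) |
      ∀ j i, |⟪p.1 j, p.2 i - p.2 0⟫| < η} := by
    have : {p : (Fin u → E d) × (Fin (q + 1) → E d) |
      ∀ j i, |⟪p.1 j, p.2 i - p.2 0⟫| < η} = ⋂ j, ⋂ i,
        {p : (Fin u → E d) × (Fin (q + 1) → E d) | |⟪p.1 j, p.2 i - p.2 0⟫| < η} := by
      ext p
      simp
    rw [this]
    refine MeasurableSet.iInter fun j => MeasurableSet.iInter fun i => ?_
    refine measurableSet_lt (Continuous.measurable ?_) measurable_const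
    fun_prop
  have e1 := Measure.prod_apply (μ := Gam u d) (ν := κ) hmeas2
  have e2 := Measure.prod_apply_symm (μ := Gam u d) (ν := κ) hmeas2
  have e3 : ∫⁻ X : Fin u → E d, κ {σ : Fin (q + 1) → E d | ∀ j i, |⟪X j, σ i - σ 0⟫| < η} ∂(Gam u d) =
      ∫⁻ σ, Gam u d {X : Fin u → E d | ∀ j i, |⟪X j, σ i - σ 0⟫| < η} ∂κ := e1.symm.trans e2
  have e4 : ∀ σ : Fin (q + 1) → E d, Gam u d {X : Fin u → E d | ∀ j i, |⟪X j, σ i - σ 0⟫| < η} =
      (stdGaussian (E d) {x | ∀ i, |⟪x, σ i - σ 0⟫| < η}) ^ u := by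
    intro σ
    have : {X : Fin u → E d | ∀ j i, |⟪X j, σ i - σ 0⟫| < η} =
        Set.univ.pi (fun _ => {x : E d | ∀ i, |⟪x, σ i - σ 0⟫| < η}) := by
      ext X
      simp [Set.mem_pi]
    rw [this, Measure.pi_pi]
    simp
  calc ∫⁻ X : Fin u → E d, (∫⁻ y : Fin u → ℝ, (gmol ν η X y) ^ (q + 1)) ∂(Gam u d)
      ≤ ∫⁻ X : Fin u → E d, c * (ENNReal.ofReal η ^ u *
        κ {σ : Fin (q + 1) → E d | ∀ j i, |⟪X j, σ i - σ 0⟫| < η}) ∂(Gam u d) :=
        lintegral_mono h2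
    _ = c * ENNReal.ofReal η ^ u * ∫⁻ X : Fin u → E d,
        κ {σ : Fin (q + 1) → E d | ∀ j i, |⟪X j, σ i - σ 0⟫| < η} ∂(Gam u d) := by
        simp only [← mul_assoc]
        rw [lintegral_const_mul]
        exact measurable_measure_prodMk_left hmeas2
    _ ≤ c * ENNReal.ofReal η ^ u * (G * (ENNReal.ofReal η ^ u) ^ q) := by
        refine mul_le_mul_right ?_ _
        rw [e3]
        simp only [e4]
        exact hG
    _ = G * (c * ((ENNReal.ofReal η ^ u) ^ (q + 1))) := by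
        rw [pow_succ]
        ring
    _ = G := by
        rw [hc, ← mul_pow, ← mul_pow, ENNReal.inv_mul_cancel hη0 ENNReal.ofReal_ne_top, one_pow,
          one_pow, mul_one]

end P309
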