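import Vale.Agent.P309.Basic

open MeasureTheory ProbabilityTheory Metric Set
open scoped ENNReal RealInnerProductSpace

namespace P309

/-- TASK P309-VOLFIX: volume of the image of a ball under a fixed `u × d` matrix. -/
theorem vol_image_fix {d u : ℕ} (hud : u ≤ d) (X : Fin u → E d) (x₀ : E d) {ρ : ℝ} (hρ : 0 < ρ) :
    volume {y : Fin u → ℝ | ∃ s ∈ closedBall x₀ ρ, ∀ j, y j = ⟪X j, s⟫} ≤
      (∏ j, ENNReal.ofReal ‖X j‖) * volume (closedBall (0 : EuclideanSpace ℝ (Fin u)) ρ) := by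
  classical
  let f : Fin d → E d := fun i => if h : i.val < u then X ⟨i.val, h⟩ else 0
  have hfin : Module.finrank ℝ (E d) = Fintype.card (Fin d) := by simp
  let b : OrthonormalBasis (Fin d) ℝ (E d) :=
    InnerProductSpace.gramSchmidtOrthonormalBasis hfin f
  let c : Fin u → Fin d := Fin.castLE hud
  have hc : Function.Injective c := Fin.castLE_injective hud
  have hfc : ∀ i, f (c i) = X i := fun i => by simp [f, c]
  have htri : ∀ (i : Fin u) (k : Fin d), i.val < k.val → ⟪b k, X i⟫ = 0 := by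
    intro i k hik
    rw [← hfc i]
    exact InnerProductSpace.gramSchmidtOrthonormalBasis_inv_triangular hfin f
      (show c i < k from hik)
  -- the matrix
  let T : Matrix (Fin u) (Fin u) ℝ := fun i k => ⟪b (c k), X i⟫
  have hT : ∀ i k, i < k → T i k = 0 := fun i k hik => htri i (c k) hik
  have hexp : ∀ (i : Fin u) (s : E d), ⟪X i, s⟫ = ∑ k : Fin u, T i k * ⟪b (c k), s⟫ := by
    intro i s
    have h1 : ⟪X i, s⟫ = ∑ k : Fin d, ⟪X i, b k⟫ * ⟪b k, s⟫ := (b.sum_inner_mul_inner (X i) s).symm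
    rw [h1]
    have h2 : ∑ k : Fin u, T i k * ⟪b (c k), s⟫ = ∑ k ∈ Finset.univ.image c, ⟪X i, b k⟫ * ⟪b k, s⟫ := by
      rw [Finset.sum_image (fun a _ b _ h => hc h)]
      refine Finset.sum_congr rfl fun k _ => ?_
      simp only [T]
      rw [real_inner_comm]
    rw [h2]
    symm
    refine Finset.sum_subset (Finset.subset_univ _) fun k _ hk => ?_
    have hku : u ≤ k.val := by
      by_contra hcon
      push Not at hcon
      exact hk (Finset.mem_image.2 ⟨⟨k.val, hcon⟩, Finset.mem_univ _, by ext; simp [c]⟩)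
    have : ⟪b k, X i⟫ = 0 := htri i k (lt_of_lt_of_le i.isLt hku)
    rw [real_inner_comm, this, zero_mul]
  -- the coordinates map
  let w : E d → (Fin u → ℝ) := fun s k => ⟪b (c k), s⟫
  have hw : ∀ s t : E d, ‖(WithLp.toLp 2 (w s) : EuclideanSpace ℝ (Fin u)) - WithLp.toLp 2 (w t)‖ ≤ ‖s - t‖ := by
    intro s t
    have h1 : ‖(WithLp.toLp 2 (w s) : EuclideanSpace ℝ (Fin u)) - WithLp.toLp 2 (w t)‖ ^ 2
        = ∑ k : Fin u, ‖⟪b (c k), s - t⟫‖ ^ 2 := by
      rw [EuclideanSpace.norm_sq_eq]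
      refine Finset.sum_congr rfl fun k _ => ?_
      simp [w, inner_sub_right]
    have h2 : ∑ k : Fin u, ‖⟪b (c k), s - t⟫‖ ^ 2 ≤ ‖s - t‖ ^ 2 := by
      rw [← b.sum_sq_norm_inner_right (s - t)]
      rw [← Finset.sum_image (s := Finset.univ) (g := c) (f := fun k => ‖⟪b k, s - t⟫‖ ^ 2)
        (fun a _ b _ h => hc h)]
      exact Finset.sum_le_sum_of_subset_of_nonneg (Finset.subset_univ _) fun _ _ _ => by positivity
    exact le_of_sq_le_sq (h1.trans_le h2) (norm_nonneg _)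
  have hsub : {y : Fin u → ℝ | ∃ s ∈ closedBall x₀ ρ, ∀ j, y j = ⟪X j, s⟫} ⊆
      (Matrix.toLin' T) '' ((fun v : Fin u → ℝ => (WithLp.toLp 2 v : EuclideanSpace ℝ (Fin u))) ⁻¹'
        closedBall (WithLp.toLp 2 (w x₀)) ρ) := by
    rintro y ⟨s, hs, hy⟩
    refine ⟨w s, ?_, ?_⟩
    · rw [mem_preimage, mem_closedBall, dist_eq_norm]
      rw [mem_closedBall, dist_eq_norm] at hs
      exact (hw s x₀).trans hs
    · ext j
      rw [hy j, hexp j s]
      simp [Matrix.mulVec, dotProduct, w]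
  refine (measure_mono hsub).trans ?_
  rw [Measure.addHaar_image_linearMap, LinearMap.det_toLin']
  have hdet : T.det = ∏ i, T i i := by
    refine Matrix.det_of_isLowerTriangular T ?_
    intro i k hik
    exact hT i k hik
  have hpre : volume ((fun v : Fin u → ℝ => (WithLp.toLp 2 v : EuclideanSpace ℝ (Fin u))) ⁻¹'
        closedBall (WithLp.toLp 2 (w x₀)) ρ) = volume (closedBall (0 : EuclideanSpace ℝ (Fin u)) ρ) := by
    have h1 := (PiLp.volume_preserving_toLp (Fin u)).measure_preimage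
      (s := closedBall (WithLp.toLp 2 (w x₀) : EuclideanSpace ℝ (Fin u)) ρ)
      measurableSet_closedBall.nullMeasurableSet
    rw [Measure.addHaar_closedBall_center] at h1
    exact h1
  rw [hpre]
  gcongr
  rw [hdet, Finset.abs_prod, ENNReal.ofReal_prod_of_nonneg (fun _ _ => abs_nonneg _)]
  refine Finset.prod_le_prod' fun i _ => ENNReal.ofReal_le_ofReal ?_
  have h1 := abs_real_inner_le_norm (b (c i)) (X i)
  rwa [b.orthonormal.1, one_mul] at h1

lemma gauss_sq : ∫⁻ x, ENNReal.ofReal (x ^ 2) ∂(gaussianReal 0 1) = 1 := by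
  have h1 := (IsGaussian.memLp_two_id (μ := gaussianReal 0 1)).ofReal_variance_eq
  rw [variance_id_gaussianReal] at h1
  rw [evariance] at h1
  have h2 : (∫ x, id x ∂(gaussianReal 0 1)) = 0 := by simp
  rw [h2] at h1
  simp only [id, sub_zero] at h1
  simp only [NNReal.coe_one, ENNReal.ofReal_one] at h1
  rw [h1]
  refine lintegral_congr fun x => ?_
  rw [← ofReal_norm, ← ENNReal.ofReal_pow (norm_nonneg _), Real.norm_eq_abs, sq_abs]

lemma gauss_norm_sq (d : ℕ) :
    ∫⁻ x, ENNReal.ofReal (‖x‖ ^ 2) ∂(stdGaussian (E d)) = d := by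
  rw [← map_pi_eq_stdGaussian, lintegral_map (by fun_prop) (by fun_prop)]
  have h : ∀ x : Fin d → ℝ, ENNReal.ofReal (‖(WithLp.toLp 2 x : E d)‖ ^ 2) =
      ∑ i, ENNReal.ofReal ((x i) ^ 2) := by
    intro x
    rw [EuclideanSpace.real_norm_sq_eq, ENNReal.ofReal_sum_of_nonneg fun i _ => sq_nonneg _]
  simp only [h]
  rw [lintegral_finsetSum _ fun i _ => by fun_prop]
  have h2 : ∀ i : Fin d, ∫⁻ x : Fin d → ℝ, ENNReal.ofReal ((x i) ^ 2)
      ∂(Measure.pi fun _ : Fin d => gaussianReal 0 1) = 1 := by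
    intro i
    have := (measurePreserving_eval (fun _ : Fin d => gaussianReal 0 1) i).lintegral_comp
      (f := fun t : ℝ => ENNReal.ofReal (t ^ 2)) (by fun_prop)
    rw [gauss_sq] at this
    exact this
  simp [h2]

/-- TASK P309-GNORM. -/
theorem gauss_norm (d : ℕ) :
    ∫⁻ x, ENNReal.ofReal ‖x‖ ∂(stdGaussian (E d)) ≤ ENNReal.ofReal (Real.sqrt d) := by
  rcases Nat.eq_zero_or_pos d with rfl | hd
  · simp only [CharP.cast_eq_zero, Real.sqrt_zero, ENNReal.ofReal_zero, nonpos_iff_eq_zero]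
    have : ∀ x : E 0, ENNReal.ofReal ‖x‖ = 0 := fun x => by
      rw [Subsingleton.elim x 0]; simp
    simp [this]
  have hd0 : (0 : ℝ) < d := by exact_mod_cast hd
  have hs : 0 < Real.sqrt d := Real.sqrt_pos.mpr hd0
  have hsq : Real.sqrt d * Real.sqrt d = d := Real.mul_self_sqrt hd0.le
  have hpt : ∀ x : E d, ENNReal.ofReal ‖x‖ ≤
      ENNReal.ofReal (Real.sqrt d / 2) + ENNReal.ofReal (1 / (2 * Real.sqrt d)) *
        ENNReal.ofReal (‖x‖ ^ 2) := by
    intro x
    rw [← ENNReal.ofReal_mul (by positivity), ← ENNReal.ofReal_add (by positivity) (by positivity)]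
    refine ENNReal.ofReal_le_ofReal ?_
    have h1 : Real.sqrt d / 2 + 1 / (2 * Real.sqrt d) * ‖x‖ ^ 2 - ‖x‖ =
        (Real.sqrt d - ‖x‖) ^ 2 / (2 * Real.sqrt d) := by
      field_simp
      ring
    have h2 : 0 ≤ (Real.sqrt d - ‖x‖) ^ 2 / (2 * Real.sqrt d) := by positivity
    linarith
  refine (lintegral_mono hpt).trans ?_
  rw [lintegral_add_left (by fun_prop), lintegral_const_mul _ (by fun_prop), gauss_norm_sq]
  simp only [lintegral_const, measure_univ, mul_one]
  rw [← ENNReal.ofReal_natCast, ← ENNReal.ofReal_mul (by positivity),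
    ← ENNReal.ofReal_add (by positivity) (by positivity)]
  refine ENNReal.ofReal_le_ofReal (le_of_eq ?_)
  field_simp
  rw [pow_two, hsq]
  ring

/-- TASK P309-BALLVOL. -/
theorem ball_vol {d u : ℕ} (hu : 1 ≤ u) (hd : d < 16 * u) {ρ : ℝ} (hρ : 0 < ρ) :
    volume (closedBall (0 : EuclideanSpace ℝ (Fin u)) ρ) * ENNReal.ofReal (Real.sqrt d) ^ u ≤
      17 ^ u * ENNReal.ofReal ρ ^ u := by
  have hu0 : (0 : ℝ) < u := by exact_mod_cast hu
  have hd' : (d : ℝ) < 16 * u := by exact_mod_cast hd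
  set b : ℝ := u / (2 * ρ ^ 2) with hb
  have hb0 : 0 < b := by positivity
  have hI : ∫ v : EuclideanSpace ℝ (Fin u), Real.exp (-b * ‖v‖ ^ 2) =
      (Real.pi / b) ^ ((u : ℝ) / 2) := by
    have := GaussianFourier.integral_rexp_neg_mul_sq_norm (V := EuclideanSpace ℝ (Fin u)) hb0
    simpa using this
  have hpos : 0 < (Real.pi / b) ^ ((u : ℝ) / 2) := Real.rpow_pos_of_pos (by positivity) _
  have hint : Integrable fun v : EuclideanSpace ℝ (Fin u) => Real.exp (-b * ‖v‖ ^ 2) := by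
    by_contra h
    rw [integral_undef h] at hI
    exact hpos.ne hI
  have h1 : volume (closedBall (0 : EuclideanSpace ℝ (Fin u)) ρ) ≤
      ENNReal.ofReal (Real.exp (u / 2) * (Real.pi / b) ^ ((u : ℝ) / 2)) := by
    rw [← hI, ← integral_const_mul, ofReal_integral_eq_lintegral_ofReal (hint.const_mul _)
      (ae_of_all _ fun v => by positivity), ← lintegral_indicator_one measurableSet_closedBall]
    refine lintegral_mono fun v => ?_
    by_cases hv : v ∈ closedBall (0 : EuclideanSpace ℝ (Fin u)) ρ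
    · rw [indicator_of_mem hv, Pi.one_apply, ← ENNReal.ofReal_one]
      refine ENNReal.ofReal_le_ofReal ?_
      rw [← Real.exp_add, Real.one_le_exp_iff]
      have hv' : ‖v‖ ≤ ρ := by simpa using hv
      have : ‖v‖ ^ 2 ≤ ρ ^ 2 := pow_le_pow_left₀ (norm_nonneg _) hv' 2
      rw [hb]
      have h3 : (u : ℝ) / (2 * ρ ^ 2) * ‖v‖ ^ 2 ≤ u / (2 * ρ ^ 2) * ρ ^ 2 :=
        mul_le_mul_of_nonneg_left this (by positivity)
      have h4 : (u : ℝ) / (2 * ρ ^ 2) * ρ ^ 2 = u / 2 := by field_simp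
      linarith
    · rw [indicator_of_notMem hv]; exact zero_le
  refine (mul_le_mul_left h1 _).trans ?_
  rw [← ENNReal.ofReal_pow (Real.sqrt_nonneg _), ← ENNReal.ofReal_mul (by positivity),
    ← ENNReal.ofReal_pow hρ.le, show (17 : ℝ≥0∞) ^ u = ENNReal.ofReal (17 ^ u) by
      rw [ENNReal.ofReal_pow (by norm_num)]; norm_num,
    ← ENNReal.ofReal_mul (by positivity)]
  refine ENNReal.ofReal_le_ofReal ?_
  have e1 : Real.exp ((u : ℝ) / 2) = (Real.exp 1) ^ ((u : ℝ) / 2) := by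
    rw [← Real.exp_mul, one_mul]
  have e2 : Real.sqrt d ^ u = (d : ℝ) ^ ((u : ℝ) / 2) := by
    rw [Real.sqrt_eq_rpow, ← Real.rpow_natCast, ← Real.rpow_mul (by positivity)]
    congr 1
    ring
  have e3 : (17 : ℝ) ^ u = (289 : ℝ) ^ ((u : ℝ) / 2) := by
    rw [show (289 : ℝ) = 17 ^ (2 : ℝ) by norm_num, ← Real.rpow_mul (by norm_num)]
    rw [show (2 : ℝ) * (u / 2) = u by ring, Real.rpow_natCast]
  have e4 : ρ ^ u = (ρ ^ 2) ^ ((u : ℝ) / 2) := by
    rw [← Real.rpow_natCast ρ 2, ← Real.rpow_mul hρ.le]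
    rw [show ((2 : ℕ) : ℝ) * ((u : ℝ) / 2) = u by push_cast; ring, Real.rpow_natCast]
  rw [e1, e2, e3, e4, ← Real.mul_rpow (by positivity) (by positivity),
    ← Real.mul_rpow (by positivity) (by positivity), ← Real.mul_rpow (by positivity) (by positivity)]
  refine Real.rpow_le_rpow (by positivity) ?_ (by positivity)
  have e5 : Real.exp 1 * (Real.pi / b) * d = 2 * Real.pi * Real.exp 1 * (d / u) * ρ ^ 2 := by
    rw [hb]
    field_simp
  rw [e5]
  refine mul_le_mul_of_nonneg_right ?_ (by positivity)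
  have h5 : (d : ℝ) / u ≤ 16 := by
    rw [div_le_iff₀ hu0]; linarith
  have h6 : Real.pi < 3.15 := Real.pi_lt_d2
  have h7 : Real.exp 1 < 2.7182818286 := Real.exp_one_lt_d9
  have h8 : Real.pi * Real.exp 1 ≤ 3.15 * 2.7182818286 :=
    mul_le_mul h6.le h7.le (Real.exp_pos _).le (by norm_num)
  calc 2 * Real.pi * Real.exp 1 * (d / u) ≤ 2 * Real.pi * Real.exp 1 * 16 :=
        mul_le_mul_of_nonneg_left h5 (by positivity)
    _ = 32 * (Real.pi * Real.exp 1) := by ring
    _ ≤ 289 := by nlinarith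

lemma isClosed_imgset {d u : ℕ} (x₀ : E d) (ρ : ℝ) :
    IsClosed {p : (Fin u → E d) × (Fin u → ℝ) | ∃ s ∈ closedBall x₀ ρ, ∀ j, p.2 j = ⟪p.1 j, s⟫} := by
  have : CompactSpace (closedBall x₀ ρ) :=
    isCompact_iff_compactSpace.mp (isCompact_closedBall x₀ ρ)
  have hZ : IsClosed {z : ((Fin u → E d) × (Fin u → ℝ)) × closedBall x₀ ρ |
      ∀ j, z.1.2 j = ⟪z.1.1 j, (z.2 : E d)⟫} := by
    simp only [ofPred_forall]
    refine isClosed_iInter (fun j => ?_)
    exact isClosed_eq (by fun_prop) (by fun_prop)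
  have h := isClosedMap_fst_of_compactSpace _ hZ
  convert h using 1
  ext p
  simp only [mem_ofPred_eq, mem_image, Prod.exists, exists_and_right, exists_eq_right, Subtype.exists]
  constructor
  · rintro ⟨s, hs, h⟩
    exact ⟨s, hs, h⟩
  · rintro ⟨s, hs, h⟩
    exact ⟨s, hs, h⟩

lemma lintegral_pi_pow {α : Type*} [MeasurableSpace α] (μ : Measure α) [SigmaFinite μ]
    {f : α → ℝ≥0∞} (hf : Measurable f) (n : ℕ) :
    ∫⁻ x : Fin n → α, ∏ i, f (x i) ∂(Measure.pi fun _ => μ) = (∫⁻ a, f a ∂μ) ^ n := by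
  induction n with
  | zero => simp
  | succ n ih =>
    have hmp := measurePreserving_piFinSuccAbove (fun _ : Fin (n + 1) => μ) 0
    have hF : Measurable (fun p : α × (Fin n → α) => f p.1 * ∏ i, f (p.2 i)) := by
      refine (hf.comp measurable_fst).mul ?_
      exact Finset.measurable_fun_prod _ (fun i _ => hf.comp ((measurable_pi_apply i).comp measurable_snd))
    have h1 := hmp.lintegral_comp hF
    have e : ∀ x : Fin (n + 1) → α, (∏ i, f (x i)) =
        (fun p : α × (Fin n → α) => f p.1 * ∏ i, f (p.2 i))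
          ((MeasurableEquiv.piFinSuccAbove (fun _ : Fin (n + 1) => α) 0) x) := by
      intro x
      rw [Fin.prod_univ_succ]
      rfl
    rw [lintegral_congr e, h1, lintegral_prod _ hF.aemeasurable]
    have hg : Measurable (fun x : Fin n → α => ∏ i, f (x i)) :=
      Finset.measurable_fun_prod _ (fun i _ => hf.comp (measurable_pi_apply i))
    have h2 : ∀ a, (∫⁻ y : Fin n → α, (fun p : α × (Fin n → α) => f p.1 * ∏ i, f (p.2 i)) (a, y)
        ∂(Measure.pi fun _ => μ)) = f a * (∫⁻ a, f a ∂μ) ^ n := by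
      intro a
      rw [← ih, ← lintegral_const_mul _ hg]
    rw [lintegral_congr h2, lintegral_mul_const _ hf, pow_succ, mul_comm]

/-- TASK P309-VOLX (uses the three lemmas above). -/
theorem vol_image {d u : ℕ} (hu : 1 ≤ u) (hud : u ≤ d) (hd : d < 16 * u) (x₀ : E d) {ρ : ℝ}
    (hρ : 0 < ρ) :
    ((Gam u d).prod (volume : Measure (Fin u → ℝ)))
      {p | ∃ s ∈ closedBall x₀ ρ, ∀ j, p.2 j = ⟪p.1 j, s⟫} ≤ 17 ^ u * ENNReal.ofReal ρ ^ u := by
  rw [Measure.prod_apply (isClosed_imgset x₀ ρ).measurableSet]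
  have h1 : ∀ X : Fin u → E d, volume (Prod.mk X ⁻¹'
      {p : (Fin u → E d) × (Fin u → ℝ) | ∃ s ∈ closedBall x₀ ρ, ∀ j, p.2 j = ⟪p.1 j, s⟫}) ≤
      (∏ j, ENNReal.ofReal ‖X j‖) * volume (closedBall (0 : EuclideanSpace ℝ (Fin u)) ρ) :=
    fun X => vol_image_fix hud X x₀ hρ
  refine (lintegral_mono h1).trans ?_
  have hn : Measurable (fun x : E d => ENNReal.ofReal ‖x‖) := by fun_prop
  have hg : Measurable (fun X : Fin u → E d => ∏ j, ENNReal.ofReal ‖X j‖) :=
    Finset.measurable_fun_prod _ (fun i _ => hn.comp (measurable_pi_apply i))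
  rw [lintegral_mul_const _ hg, lintegral_pi_pow (stdGaussian (E d)) hn u]
  refine le_trans ?_ (ball_vol hu hd hρ)
  rw [mul_comm]
  gcongr
  exact gauss_norm d

end P309
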