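import Vale.Agent.P309.AffInt
import Vale.Agent.P309.Chain
import Vale.Agent.P309.Moll
import Vale.Agent.P309.Dens
import Vale.Agent.P309.VolX

open MeasureTheory ProbabilityTheory Metric Set
open scoped ENNReal RealInnerProductSpace

namespace P309

/-- Hölder with the counting measure, in the form used for the blocks. -/
theorem blk_holder {ι : Type*} (S : Finset ι) (a : ι → ℝ≥0∞) {u : ℕ} (hu : 1 ≤ u) :
    (∑ i ∈ S, a i ^ ((2 * u : ℝ) / (2 * u + 1))) ^ (2 * u + 1) ≤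
      (S.card : ℝ≥0∞) * (∑ i ∈ S, a i) ^ (2 * u) := by
  have hu0 : (0 : ℝ) < u := by exact_mod_cast hu
  have h2 : (0 : ℝ) < 2 * u := by positivity
  set p : ℝ := (2 * u + 1) / (2 * u) with hp
  have hp1 : 1 ≤ p := by
    rw [hp, le_div_iff₀ h2]; linarith
  have h := ENNReal.rpow_sum_le_const_mul_sum_rpow S
    (fun i => a i ^ ((2 * u : ℝ) / (2 * u + 1))) hp1
  have e1 : ∀ i ∈ S, (a i ^ ((2 * u : ℝ) / (2 * u + 1))) ^ p = a i := by
    intro i _
    rw [← ENNReal.rpow_mul]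
    have : (2 * u : ℝ) / (2 * u + 1) * p = 1 := by
      rw [hp]; field_simp
    rw [this, ENNReal.rpow_one]
  rw [Finset.sum_congr rfl e1] at h
  have h3 := ENNReal.rpow_le_rpow h (le_of_lt h2)
  rw [← ENNReal.rpow_mul, ENNReal.mul_rpow_of_nonneg _ _ h2.le, ← ENNReal.rpow_mul] at h3
  have e2 : p * (2 * u : ℝ) = ((2 * u + 1 : ℕ) : ℝ) := by
    rw [hp]; push_cast; field_simp
  have e3 : (p - 1) * (2 * u : ℝ) = 1 := by
    rw [hp]; field_simp; ring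
  have e4 : (2 * u : ℝ) = ((2 * u : ℕ) : ℝ) := by push_cast; ring
  rw [e2, e3, ENNReal.rpow_one, ENNReal.rpow_natCast] at h3
  conv_rhs at h3 => rw [e4]
  rw [ENNReal.rpow_natCast] at h3
  exact h3

/-- Sum of the root estimates. -/
theorem blk_sum {ι : Type*} (S : Finset ι) (L a : ι → ℝ≥0∞) {u : ℕ} (hu : 1 ≤ u) (G : ℝ≥0∞)
    (h : ∀ i ∈ S, L i ^ (2 * u + 1) ≤ G * a i ^ (2 * u)) :
    (∑ i ∈ S, L i) ^ (2 * u + 1) ≤ G * ((S.card : ℝ≥0∞) * (∑ i ∈ S, a i) ^ (2 * u)) := by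
  have hu0 : (0 : ℝ) < u := by exact_mod_cast hu
  have h21 : (0 : ℝ) < 2 * u + 1 := by positivity
  have hroot : ∀ i ∈ S, L i ≤ G ^ ((1 : ℝ) / (2 * u + 1)) * a i ^ ((2 * u : ℝ) / (2 * u + 1)) := by
    intro i hi
    have h1 := ENNReal.rpow_le_rpow (h i hi) (le_of_lt (one_div_pos.mpr h21))
    rw [← ENNReal.rpow_natCast (L i), ← ENNReal.rpow_mul,
      ENNReal.mul_rpow_of_nonneg _ _ (le_of_lt (one_div_pos.mpr h21)),
      ← ENNReal.rpow_natCast (a i), ← ENNReal.rpow_mul] at h1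
    have e1 : ((2 * u + 1 : ℕ) : ℝ) * (1 / (2 * u + 1)) = 1 := by
      push_cast; field_simp
    have e2 : ((2 * u : ℕ) : ℝ) * (1 / (2 * u + 1)) = (2 * u : ℝ) / (2 * u + 1) := by
      push_cast; ring
    rw [e1, e2, ENNReal.rpow_one] at h1
    exact h1
  calc (∑ i ∈ S, L i) ^ (2 * u + 1)
      ≤ (∑ i ∈ S, G ^ ((1 : ℝ) / (2 * u + 1)) * a i ^ ((2 * u : ℝ) / (2 * u + 1))) ^ (2 * u + 1) := by
        gcongr with i hi
        exact hroot i hi
    _ = G * (∑ i ∈ S, a i ^ ((2 * u : ℝ) / (2 * u + 1))) ^ (2 * u + 1) := by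
        rw [← Finset.mul_sum, mul_pow]
        congr 1
        rw [← ENNReal.rpow_natCast, ← ENNReal.rpow_mul]
        have e1 : (1 : ℝ) / (2 * u + 1) * ((2 * u + 1 : ℕ) : ℝ) = 1 := by
          push_cast; field_simp
        rw [e1, ENNReal.rpow_one]
    _ ≤ G * ((S.card : ℝ≥0∞) * (∑ i ∈ S, a i) ^ (2 * u)) := by
        gcongr
        exact blk_holder S a hu

/-- TASK P309-BLOCK (uses `affine_int`, `chain`, `moll`, `dens`, `vol_image`). -/
theorem block {d u : ℕ} (hu : 1 ≤ u) (h1 : 8 * u ≤ d) (h2 : d < 16 * u) {ι : Type*}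
    (S : Finset ι) (A : ι → Set ((Fin u → E d) × (Fin u → ℝ)))
    (hA : ∀ i ∈ S, MeasurableSet (A i)) (hdis : (S : Set ι).PairwiseDisjoint A)
    (μ : ι → Measure (E d)) (hfin : ∀ i ∈ S, IsFiniteMeasure (μ i)) (K : ℝ≥0∞) (hKtop : K ≠ ⊤)
    (hK : ∀ i ∈ S, Frost (μ i) K (4 * u)) (x₀ : E d) {ρ : ℝ} (hρ : 0 < ρ) :
    ∑ i ∈ S, ∫⁻ X, (μ i) {s | s ∈ closedBall x₀ ρ ∧ (X, fun j => ⟪X j, s⟫) ∈ A i} ∂(Gam u d) ≤
      ((S.card : ℝ≥0∞) ^ ((1 : ℝ) / (2 * u + 1)) * 2 ^ (16 * u)) * K *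
        ENNReal.ofReal ρ ^ (4 * u) := by
  classical
  set lam : Measure ((Fin u → E d) × (Fin u → ℝ)) :=
    (Gam u d).prod (volume : Measure (Fin u → ℝ)) with hlam
  set Y0 : Set ((Fin u → E d) × (Fin u → ℝ)) :=
    {p | ∃ s ∈ closedBall x₀ ρ, ∀ j, p.2 j = ⟪p.1 j, s⟫} with hY0
  set Y := toMeasurable lam Y0 with hY
  have hYm : MeasurableSet Y := measurableSet_toMeasurable _ _
  have hY0Y : Y0 ⊆ Y := subset_toMeasurable _ _
  have hlamY : lam Y ≤ 17 ^ u * ENNReal.ofReal ρ ^ u := by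
    rw [hY, measure_toMeasurable]
    exact vol_image hu (by omega) h2 x₀ hρ
  have hYtop : lam Y ≠ ⊤ := by
    refine ne_top_of_le_ne_top ?_ hlamY
    exact ENNReal.mul_ne_top (ENNReal.pow_ne_top (by norm_num))
      (ENNReal.pow_ne_top ENNReal.ofReal_ne_top)
  set R := ENNReal.ofReal ρ with hR
  set D : ℝ≥0∞ := K * R ^ (3 * u) * 2 ^ (11 * u) with hD
  set G : ℝ≥0∞ := K * R ^ (4 * u) * D ^ (2 * u) with hG
  set L : ι → ℝ≥0∞ := fun i =>
    ∫⁻ X, (μ i) {s | s ∈ closedBall x₀ ρ ∧ (X, fun j => ⟪X j, s⟫) ∈ A i} ∂(Gam u d) with hL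
  have hmap : ∀ X : Fin u → E d, Measurable fun s : E d => ((X, fun j => ⟪X j, s⟫) :
      (Fin u → E d) × (Fin u → ℝ)) := by
    intro X
    refine measurable_const.prodMk ?_
    refine measurable_pi_lambda _ fun j => ?_
    fun_prop
  have hRtop : R ≠ ⊤ := ENNReal.ofReal_ne_top
  have hGtop : G ≠ ⊤ := by
    rw [hG, hD]
    exact ENNReal.mul_ne_top (ENNReal.mul_ne_top hKtop (ENNReal.pow_ne_top hRtop))
      (ENNReal.pow_ne_top (ENNReal.mul_ne_top (ENNReal.mul_ne_top hKtop (ENNReal.pow_ne_top hRtop))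
        (ENNReal.pow_ne_top (by norm_num))))
  have key : ∀ i ∈ S, L i ^ (2 * u + 1) ≤ G * lam (A i ∩ Y) ^ (2 * u) := by
    intro i hi
    have := hfin i hi
    set ν : Measure (E d) := (μ i).restrict (closedBall x₀ ρ) with hν
    have hνuniv : ν univ ≤ K * R ^ (4 * u) := by
      rw [hν, Measure.restrict_apply_univ]
      exact hK i hi x₀ ρ hρ
    have hmom : ∀ η : ℝ, 0 < η →
        ∫⁻ X : Fin u → E d, (∫⁻ y : Fin u → ℝ, (gmol ν η X y) ^ (2 * u + 1)) ∂(Gam u d) ≤ G := by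
      intro η hη
      refine moll ν (2 * u) G hη ?_
      refine (chain hu ν D ?_ hη).trans ?_
      · intro B hB hdim
        exact affine_int hu hB hdim (hK i hi) x₀ hρ
      · rw [mul_pow, hG]
        calc ν univ * ((ENNReal.ofReal η ^ u) ^ (2 * u) * D ^ (2 * u))
            ≤ (K * R ^ (4 * u)) * ((ENNReal.ofReal η ^ u) ^ (2 * u) * D ^ (2 * u)) := by
              gcongr
          _ = K * R ^ (4 * u) * D ^ (2 * u) * (ENNReal.ofReal η ^ u) ^ (2 * u) := by ring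
    have hAm : MeasurableSet (A i ∩ Y) := (hA i hi).inter hYm
    have hlamA : lam (A i ∩ Y) ≠ ⊤ :=
      ne_top_of_le_ne_top hYtop (measure_mono inter_subset_right)
    have hd := dens ν (2 * u) G hmom hGtop hAm hlamA
    have hLeq : L i = ∫⁻ X, ν {s | (X, fun j => ⟪X j, s⟫) ∈ A i ∩ Y} ∂(Gam u d) := by
      rw [hL]
      refine lintegral_congr fun X => ?_
      have hm : MeasurableSet {s : E d | ((X, fun j => ⟪X j, s⟫) :
          (Fin u → E d) × (Fin u → ℝ)) ∈ A i ∩ Y} := hmap X hAm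
      rw [hν, Measure.restrict_apply hm]
      congr 1
      ext s
      constructor
      · rintro ⟨hs, hsA⟩
        exact ⟨⟨hsA, hY0Y ⟨s, hs, fun j => rfl⟩⟩, hs⟩
      · rintro ⟨⟨hsA, _⟩, hs⟩
        exact ⟨hs, hsA⟩
    rw [hLeq]
    exact hd
  have hsum := blk_sum S L (fun i => lam (A i ∩ Y)) hu G key
  have hdisj : ∑ i ∈ S, lam (A i ∩ Y) ≤ lam Y := by
    rw [← measure_biUnion_finset]
    · refine measure_mono ?_
      intro p hp
      simp only [mem_iUnion] at hp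
      obtain ⟨i, _, hp⟩ := hp
      exact hp.2
    · intro i hi j hj hij
      exact (hdis hi hj hij).mono inter_subset_left inter_subset_left
    · intro i hi
      exact (hA i hi).inter hYm
  have hfinal : (∑ i ∈ S, L i) ^ (2 * u + 1) ≤
      (((S.card : ℝ≥0∞) ^ ((1 : ℝ) / (2 * u + 1)) * 2 ^ (16 * u)) * K * R ^ (4 * u)) ^
        (2 * u + 1) := by
    refine hsum.trans ?_
    have e1 : ((S.card : ℝ≥0∞) ^ ((1 : ℝ) / (2 * u + 1))) ^ (2 * u + 1) = (S.card : ℝ≥0∞) := by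
      rw [← ENNReal.rpow_natCast, ← ENNReal.rpow_mul]
      have : (1 : ℝ) / (2 * u + 1) * ((2 * u + 1 : ℕ) : ℝ) = 1 := by
        push_cast; field_simp
      rw [this, ENNReal.rpow_one]
    have e2 : (((S.card : ℝ≥0∞) ^ ((1 : ℝ) / (2 * u + 1)) * 2 ^ (16 * u)) * K * R ^ (4 * u)) ^
        (2 * u + 1) = (S.card : ℝ≥0∞) * (2 ^ (16 * u)) ^ (2 * u + 1) * K ^ (2 * u + 1) *
          (R ^ (4 * u)) ^ (2 * u + 1) := by
      rw [mul_pow, mul_pow, mul_pow, e1]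
    rw [e2]
    have hnum : ((2 : ℝ≥0∞) ^ (11 * u)) ^ (2 * u) * (17 ^ u) ^ (2 * u) ≤
        (2 ^ (16 * u)) ^ (2 * u + 1) := by
      have hn : ((2 : ℕ) ^ (11 * u)) ^ (2 * u) * (17 ^ u) ^ (2 * u) ≤
          (2 ^ (16 * u)) ^ (2 * u + 1) := by
        have h17 : (17 ^ u) ^ (2 * u) ≤ ((2 : ℕ) ^ (5 * u)) ^ (2 * u) := by
          refine Nat.pow_le_pow_left ?_ _
          rw [pow_mul]
          exact Nat.pow_le_pow_left (by norm_num) _
        calc ((2 : ℕ) ^ (11 * u)) ^ (2 * u) * (17 ^ u) ^ (2 * u)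
            ≤ ((2 : ℕ) ^ (11 * u)) ^ (2 * u) * ((2 : ℕ) ^ (5 * u)) ^ (2 * u) :=
              Nat.mul_le_mul_left _ h17
          _ = (2 ^ (16 * u)) ^ (2 * u) := by
              rw [← mul_pow, ← pow_add]; congr 2; ring
          _ ≤ (2 ^ (16 * u)) ^ (2 * u + 1) :=
              Nat.pow_le_pow_right (by positivity) (by omega)
      exact_mod_cast hn
    calc G * ((S.card : ℝ≥0∞) * (∑ i ∈ S, lam (A i ∩ Y)) ^ (2 * u))
        ≤ G * ((S.card : ℝ≥0∞) * (17 ^ u * R ^ u) ^ (2 * u)) := by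
          gcongr
          exact hdisj.trans hlamY
      _ = (S.card : ℝ≥0∞) * (((2 : ℝ≥0∞) ^ (11 * u)) ^ (2 * u) * (17 ^ u) ^ (2 * u)) *
            K ^ (2 * u + 1) * (R ^ (4 * u)) ^ (2 * u + 1) := by
          rw [hG, hD]; ring
      _ ≤ (S.card : ℝ≥0∞) * (2 ^ (16 * u)) ^ (2 * u + 1) * K ^ (2 * u + 1) *
            (R ^ (4 * u)) ^ (2 * u + 1) := by
          gcongr
  have hpos : (0 : ℝ) < ((2 * u + 1 : ℕ) : ℝ) := by positivity
  rw [← ENNReal.rpow_natCast, ← ENNReal.rpow_natCast, ENNReal.rpow_le_rpow_iff hpos] at hfinal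
  exact hfinal

end P309
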