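import Vale.Agent.P309.Basic

open MeasureTheory ProbabilityTheory Metric Set
open scoped ENNReal RealInnerProductSpace

namespace P309

variable {C : Type*} [MeasurableSpace C] [DiscreteMeasurableSpace C] [Countable C] {d : ℕ}

namespace USplitAux

theorem disc_comp {Ω β : Type*} [MeasurableSpace Ω] [MeasurableSpace β] {g : Ω → C}
    {F : C → Ω → β} (hg : Measurable g) (hF : ∀ c, Measurable (F c)) :
    Measurable fun ω => F (g ω) ω := by
  have h : Measurable fun p : C × Ω => F p.1 p.2 := measurable_from_prod_countable_right hF
  exact h.comp (hg.prodMk measurable_id)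

end USplitAux

/-- TASK P309-USPLIT (the statements of this file). -/
theorem runC_meas {st : ℕ → C → E d → ℝ → C}
    (hst : ∀ t c, Measurable fun p : E d × ℝ => st t c p.1 p.2) (t : ℕ) (c : C) (n : ℕ) :
    Measurable fun p : (Fin n → E d) × (Fin n → ℝ) => runC st t c n p.1 p.2 := by
  induction n with
  | zero =>
    simp only [runC]
    exact measurable_const
  | succ n ih =>
    simp only [runC]
    have hg : Measurable fun p : (Fin (n + 1) → E d) × (Fin (n + 1) → ℝ) =>
        runC st t c n (fun j => p.1 j.castSucc) (fun j => p.2 j.castSucc) := by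
      have h2 : Measurable fun p : (Fin (n + 1) → E d) × (Fin (n + 1) → ℝ) =>
          ((fun j : Fin n => p.1 j.castSucc : Fin n → E d),
            (fun j : Fin n => p.2 j.castSucc : Fin n → ℝ)) := by
        refine Measurable.prodMk ?_ ?_
        · exact measurable_pi_iff.2 fun j => (measurable_pi_apply _).comp measurable_fst
        · exact measurable_pi_iff.2 fun j => (measurable_pi_apply _).comp measurable_snd
      exact ih.comp h2
    refine USplitAux.disc_comp (F := fun c' (p : (Fin (n + 1) → E d) × (Fin (n + 1) → ℝ)) =>
      st (t + n) c' (p.1 (Fin.last n)) (p.2 (Fin.last n))) hg (fun c' => ?_)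
    have h3 : Measurable fun p : (Fin (n + 1) → E d) × (Fin (n + 1) → ℝ) =>
        (p.1 (Fin.last n), p.2 (Fin.last n)) :=
      ((measurable_pi_apply _).comp measurable_fst).prodMk
        ((measurable_pi_apply _).comp measurable_snd)
    exact (hst (t + n) c').comp h3

theorem U_meas {st : ℕ → C → E d → ℝ → C}
    (hst : ∀ t c, Measurable fun p : E d × ℝ => st t c p.1 p.2) {f : C → E d → ℝ≥0∞}
    (hf : ∀ c, Measurable (f c)) (k t : ℕ) (c : C) : Measurable (U st f k t c) := by
  induction k generalizing t c with
  | zero => exact hf c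
  | succ k ih =>
    have hg : Measurable fun p : E d × E d => st t c p.2 (inner ℝ p.2 p.1) := by
      have h1 : Measurable fun p : E d × E d => (p.2, (inner ℝ p.2 p.1 : ℝ)) := by fun_prop
      exact (hst t c).comp h1
    have hF : Measurable fun p : E d × E d =>
        U st f k (t + 1) (st t c p.2 (inner ℝ p.2 p.1)) p.1 :=
      USplitAux.disc_comp (F := fun c' (p : E d × E d) => U st f k (t + 1) c' p.1) hg
        (fun c' => (ih (t + 1) c').comp measurable_fst)
    exact hF.lintegral_prod_right'

theorem U_le_one {st : ℕ → C → E d → ℝ → C} {f : C → E d → ℝ≥0∞}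
    (hf1 : ∀ c s, f c s ≤ 1) (k t : ℕ) (c : C) (s : E d) : U st f k t c s ≤ 1 := by
  induction k generalizing t c with
  | zero => exact hf1 c s
  | succ k ih =>
    calc U st f (k + 1) t c s
        ≤ ∫⁻ _x : E d, 1 ∂(stdGaussian (E d)) := lintegral_mono fun x => ih _ _
      _ = 1 := by simp

theorem U_split {st : ℕ → C → E d → ℝ → C}
    (hst : ∀ t c, Measurable fun p : E d × ℝ => st t c p.1 p.2) {f : C → E d → ℝ≥0∞}
    (hf : ∀ c, Measurable (f c)) (n k t : ℕ) (c : C) (s : E d) :
    U st f (n + k) t c s =
      ∫⁻ X, U st f k (t + n) (runC st t c n X (fun j => ⟪X j, s⟫)) s ∂(Gam n d) := by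
  induction n generalizing k with
  | zero =>
    simp only [runC, zero_add, add_zero, lintegral_const, measure_univ, mul_one]
  | succ n ih =>
    have h1 : n + 1 + k = n + (k + 1) := by ring
    rw [h1, ih (k + 1)]
    have hrun : Measurable fun X : Fin n → E d =>
        runC st t c n X (fun j => (inner ℝ (X j) s : ℝ)) := by
      have h2 : Measurable fun X : Fin n → E d =>
          (X, (fun j => (inner ℝ (X j) s : ℝ) : Fin n → ℝ)) := by
        refine measurable_id.prodMk (measurable_pi_iff.2 fun j => ?_)
        have : Measurable fun x : E d => (inner ℝ x s : ℝ) := by fun_prop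
        exact this.comp (measurable_pi_apply j)
      exact (runC_meas hst t c n).comp h2
    have hG : ∀ c' : C, Measurable fun c'' : C => U st f k (t + n + 1) c'' s :=
      fun _ => measurable_of_countable _
    have hF : Measurable fun p : E d × (Fin n → E d) =>
        U st f k (t + n + 1) (st (t + n) (runC st t c n p.2 (fun j => (inner ℝ (p.2 j) s : ℝ)))
          p.1 (inner ℝ p.1 s)) s := by
      refine (hG c).comp ?_
      refine USplitAux.disc_comp (F := fun c' (p : E d × (Fin n → E d)) =>
        st (t + n) c' p.1 (inner ℝ p.1 s)) (hrun.comp measurable_snd) (fun c' => ?_)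
      have h3 : Measurable fun p : E d × (Fin n → E d) => (p.1, (inner ℝ p.1 s : ℝ)) := by
        have : Measurable fun x : E d => (x, (inner ℝ x s : ℝ)) := by fun_prop
        exact this.comp measurable_fst
      exact (hst (t + n) c').comp h3
    have hmp := measurePreserving_piFinSuccAbove
      (fun _ : Fin (n + 1) => (stdGaussian (E d))) (Fin.last n)
    have h4 := hmp.lintegral_comp hF
    rw [lintegral_prod_symm' _ hF] at h4
    have h5 : ∫⁻ X, U st f (k + 1) (t + n) (runC st t c n X (fun j => (inner ℝ (X j) s : ℝ))) s
        ∂(Gam n d) = ∫⁻ X : Fin n → E d, ∫⁻ x : E d,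
          U st f k (t + n + 1) (st (t + n) (runC st t c n X (fun j => (inner ℝ (X j) s : ℝ)))
          x (inner ℝ x s)) s ∂(stdGaussian (E d)) ∂(Gam n d) := rfl
    refine (h5.trans h4.symm).trans ?_
    refine lintegral_congr fun X => ?_
    have h6 : (MeasurableEquiv.piFinSuccAbove (fun _ : Fin (n + 1) => E d) (Fin.last n)) X =
        (X (Fin.last n), fun j : Fin n => X j.castSucc) := by
      refine Prod.ext rfl (funext fun j => ?_)
      show X ((Fin.last n).succAbove j) = _
      rw [Fin.succAbove_last]
    rw [h6]
    rfl

end P309
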