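import Vale.Agent.P309.Block
import Vale.Agent.P309.USplit

open MeasureTheory ProbabilityTheory Metric Set
open scoped ENNReal RealInnerProductSpace

namespace P309

variable {C : Type*} [MeasurableSpace C] [DiscreteMeasurableSpace C] [Countable C] {d : ℕ}

/-- TASK P309-FROSTIND (uses `block`, `U_split`, `U_meas`, `U_le_one`, `runC_meas`). -/
theorem frost_U {u : ℕ} (hu : 1 ≤ u) (h1 : 8 * u ≤ d) (h2 : d < 16 * u)
    (σ : Measure (E d)) [IsFiniteMeasure σ] {st : ℕ → C → E d → ℝ → C}
    (hst : ∀ t c, Measurable fun p : E d × ℝ => st t c p.1 p.2) {f : C → E d → ℝ≥0∞}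
    (hf : ∀ c, Measurable (f c)) (hf1 : ∀ c s, f c s ≤ 1) (N : ℕ)
    (hreach : ∀ t c, ∃ S : Finset C, S.card ≤ N ∧ ∀ X y, runC st t c u X y ∈ S)
    (K : ℝ≥0∞) (hKtop : K ≠ ⊤) (hK : ∀ c, Frost (σ.withDensity (f c)) K (4 * u)) (n t : ℕ) (c : C) :
    Frost (σ.withDensity (U st f (n * u) t c))
      (((N : ℝ≥0∞) ^ ((1 : ℝ) / (2 * u + 1)) * 2 ^ (16 * u)) ^ n * K) (4 * u) := by
  classical
  induction n generalizing t c with
  | zero =>
    rw [Nat.zero_mul, pow_zero, one_mul]
    exact hK c
  | succ n ih =>
    intro x₀ ρ hρ
    obtain ⟨S, hScard, hSmem⟩ := hreach t c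
    set B := closedBall x₀ ρ with hB
    have hBm : MeasurableSet B := isClosed_closedBall.measurableSet
    set K' := (((N : ℝ≥0∞) ^ ((1 : ℝ) / (2 * u + 1)) * 2 ^ (16 * u)) ^ n * K) with hK'
    have hK'top : K' ≠ ⊤ := by
      refine ENNReal.mul_ne_top (ENNReal.pow_ne_top (ENNReal.mul_ne_top ?_ ?_)) hKtop
      · exact ENNReal.rpow_ne_top_of_nonneg (by positivity) (ENNReal.natCast_ne_top N)
      · exact ENNReal.pow_ne_top (by norm_num)
    set A : C → Set ((Fin u → E d) × (Fin u → ℝ)) := fun i => {p | runC st t c u p.1 p.2 = i} with hAdef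
    have hAm : ∀ i, MeasurableSet (A i) := fun i =>
      (runC_meas hst t c u) (MeasurableSet.of_discrete (s := ({i} : Set C)))
    have hblock := block hu h1 h2 S A (fun i _ => hAm i)
      (by
        intro i _ j _ hij
        refine Set.disjoint_left.2 fun p hp hq => hij ?_
        exact (show runC st t c u p.1 p.2 = i from hp).symm.trans hq)
      (fun i => σ.withDensity (U st f (n * u) (t + u) i))
      (fun i _ => by
        refine isFiniteMeasure_withDensity ?_
        refine (lt_of_le_of_lt (lintegral_mono fun s => U_le_one hf1 _ _ _ _) ?_).ne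
        simpa using measure_lt_top σ univ)
      K' hK'top (fun i _ => ih (t + u) i) x₀ hρ
    have hUm : ∀ k t c, Measurable (U st f k t c) := fun k t c => U_meas hst hf k t c
    have hFm : Measurable fun q : (Fin u → E d) × E d => (q.1, fun j => ⟪q.1 j, q.2⟫) := by
      refine Measurable.prodMk measurable_fst ?_
      exact measurable_pi_lambda _ fun j => by fun_prop
    -- the value function as an integral of a finite sum
    have key : (σ.withDensity (U st f ((n + 1) * u) t c)) B =
        ∑ i ∈ S, ∫⁻ X, (σ.withDensity (U st f (n * u) (t + u) i))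
          {s | s ∈ B ∧ (X, fun j => ⟪X j, s⟫) ∈ A i} ∂(Gam u d) := by
      rw [withDensity_apply _ hBm]
      have e1 : ∀ s, U st f ((n + 1) * u) t c s =
          ∑ i ∈ S, ∫⁻ X, (A i).indicator (fun _ => U st f (n * u) (t + u) i s)
            (X, fun j => ⟪X j, s⟫) ∂(Gam u d) := by
        intro s
        have h0 : (n + 1) * u = u + n * u := by ring
        rw [h0, U_split hst hf]
        rw [← lintegral_finsetSum]
        · refine lintegral_congr fun X => ?_
          have hm := hSmem X (fun j => ⟪X j, s⟫)
          rw [Finset.sum_eq_single (runC st t c u X fun j => ⟪X j, s⟫)]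
          · rw [indicator_of_mem]; rfl
          · intro i _ hi
            rw [indicator_of_notMem]
            exact fun h => hi (show runC st t c u X (fun j => ⟪X j, s⟫) = i from h).symm
          · intro h; exact absurd hm h
        · intro i _
          have : Measurable fun X : Fin u → E d => (X, fun j => ⟪X j, s⟫) := by
            refine Measurable.prodMk measurable_id ?_
            exact measurable_pi_lambda _ fun j => by fun_prop
          exact (measurable_const.indicator (hAm i)).comp this
      have hmeas : ∀ i, Measurable fun q : (Fin u → E d) × E d =>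
          (A i).indicator (fun _ => U st f (n * u) (t + u) i q.2) (q.1, fun j => ⟪q.1 j, q.2⟫) := by
        intro i
        have hset : MeasurableSet ((fun q : (Fin u → E d) × E d => (q.1, fun j => ⟪q.1 j, q.2⟫)) ⁻¹' A i) :=
          hFm (hAm i)
        have : (fun q : (Fin u → E d) × E d =>
          (A i).indicator (fun _ => U st f (n * u) (t + u) i q.2) (q.1, fun j => ⟪q.1 j, q.2⟫)) =
          ((fun q : (Fin u → E d) × E d => (q.1, fun j => ⟪q.1 j, q.2⟫)) ⁻¹' A i).indicator
            (fun q => U st f (n * u) (t + u) i q.2) := by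
          funext q; simp [Set.indicator]
        rw [this]
        exact ((hUm _ _ _).comp measurable_snd).indicator hset
      simp_rw [e1]
      rw [lintegral_finsetSum]
      · refine Finset.sum_congr rfl fun i _ => ?_
        rw [lintegral_lintegral_swap]
        · refine lintegral_congr fun X => ?_
          have hset : MeasurableSet {s | s ∈ B ∧ (X, fun j => ⟪X j, s⟫) ∈ A i} := by
            refine hBm.inter ?_
            have : Measurable fun s : E d => (X, fun j => ⟪X j, s⟫) := by
              refine Measurable.prodMk measurable_const ?_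
              exact measurable_pi_lambda _ fun j => by fun_prop
            exact this (hAm i)
          rw [withDensity_apply _ hset]
          rw [← lintegral_indicator hBm, ← lintegral_indicator hset]
          refine lintegral_congr fun s => ?_
          by_cases hs : s ∈ B <;> by_cases hs' : (X, fun j => ⟪X j, s⟫) ∈ A i <;>
            simp [Set.indicator, hs, hs']
        · exact ((hmeas i).comp measurable_swap).aemeasurable
      · intro i _
        have := (hmeas i).comp (measurable_swap (α := E d) (β := Fin u → E d))
        exact this.lintegral_prod_right'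
    rw [key]
    refine hblock.trans ?_
    have hcard : ((S.card : ℝ≥0∞)) ^ ((1 : ℝ) / (2 * u + 1)) ≤ (N : ℝ≥0∞) ^ ((1 : ℝ) / (2 * u + 1)) :=
      ENNReal.rpow_le_rpow (by exact_mod_cast hScard) (by positivity)
    have : (N : ℝ≥0∞) ^ ((1 : ℝ) / (2 * u + 1)) * 2 ^ (16 * u) * K' =
        ((N : ℝ≥0∞) ^ ((1 : ℝ) / (2 * u + 1)) * 2 ^ (16 * u)) ^ (n + 1) * K := by
      rw [hK', pow_succ]; ring
    rw [← this]
    gcongr

end P309
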