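import Vale.Agent.P309.ConnectA
import Vale.Agent.P309.FrostInd

open MeasureTheory ProbabilityTheory Metric Set
open scoped ENNReal RealInnerProductSpace

namespace P309

variable {Ω : Type*} [MeasurableSpace Ω] {d M : ℕ}

/-- TASK P309-SUCC (uses `frost_U`, `cap_frost`, `stT_reach`, `stT_meas`, `successProb_eq`). -/
theorem successProb_le {u : ℕ} (hu : 1 ≤ u) (h1 : 8 * u ≤ d) (h2 : d < 16 * u)
    (L : Learner Ω d M) (P : Measure Ω) [IsProbabilityMeasure P] (T n : ℕ) (hT : T ≤ n * u)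
    {ε : ℝ} (hε : 0 < ε) (hε1 : ε ≤ 1) :
    successProb L P T ε ≤
      ((((2 ^ M * (u + 1) : ℕ) : ℝ≥0∞) ^ ((1 : ℝ) / (2 * u + 1)) * 2 ^ (16 * u)) ^ n *
        (2 ^ (d + 1) * ENNReal.ofReal ε ^ (d - 1 - 4 * u))) := by
  have hd : 1 ≤ d := by omega
  have := isProb_unifSphere hd
  obtain ⟨k, hk⟩ := Nat.exists_eq_add_of_le hT
  rw [successProb_eq L P T k ε hd, ← hk]
  set K₀ : ℝ≥0∞ := 2 ^ (d + 1) * ENNReal.ofReal ε ^ (d - 1 - 4 * u) with hK₀
  have hK₀top : K₀ ≠ ⊤ :=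
    ENNReal.mul_ne_top (ENNReal.pow_ne_top (by norm_num)) (ENNReal.pow_ne_top ENNReal.ofReal_ne_top)
  have hnorm : ∀ ω c, ‖guess L ω T c‖ = 1 := by
    intro ω c
    rcases c with m | ⟨m, t⟩
    · exact L.out_norm T m ω
    · exact L.out_norm t m ω
  have hω : ∀ ω, ∫⁻ s, U (stT L ω T) (fT L ω T ε) (n * u) 0 (Sum.inl (L.init ω)) s
        ∂(unifSphere d) ≤
      ((((2 ^ M * (u + 1) : ℕ) : ℝ≥0∞) ^ ((1 : ℝ) / (2 * u + 1)) * 2 ^ (16 * u)) ^ n * K₀) := by
    intro ω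
    have hF := frost_U hu h1 h2 (unifSphere d) (fun t c => stT_meas L ω T t c)
      (fun c => fT_meas L ω T ε c) (fun c s => fT_le_one L ω T ε c s) (2 ^ M * (u + 1))
      (fun t c => stT_reach L ω T u t c) K₀ hK₀top
      (fun c => cap_frost hu h1 (guess L ω T c) (hnorm ω c) hε hε1) n 0 (Sum.inl (L.init ω))
      0 1 one_pos
    have hUm := U_meas (fun t c => stT_meas L ω T t c)
      (fun c => fT_meas L ω T ε c) (n * u) 0 (Sum.inl (L.init ω))
    rw [withDensity_apply _ isClosed_closedBall.measurableSet, ENNReal.ofReal_one, one_pow,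
      mul_one] at hF
    refine le_trans (le_of_eq ?_) hF
    rw [← lintegral_add_compl _ (isClosed_closedBall (x := (0 : E d)) (ε := 1)).measurableSet]
    have hz : (unifSphere d).restrict (closedBall (0 : E d) 1)ᶜ = 0 := by
      rw [Measure.restrict_eq_zero]
      refine measure_mono_null ?_ (unifSphere_norm d)
      intro s hs
      simp only [mem_compl_iff, mem_closedBall, dist_zero_right, not_le] at hs
      exact ne_of_gt hs
    rw [hz]; simp
  calc _ ≤ ∫⁻ _ω, ((((2 ^ M * (u + 1) : ℕ) : ℝ≥0∞) ^ ((1 : ℝ) / (2 * u + 1)) *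
          2 ^ (16 * u)) ^ n * K₀) ∂P := lintegral_mono hω
    _ = _ := by simp

end P309
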