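import Vale.Agent.P309.Basic

open MeasureTheory ProbabilityTheory Metric Set
open scoped ENNReal RealInnerProductSpace Pointwise

namespace P309

theorem toSphere_univ_eq (d : ℕ) :
    (volume : Measure (E d)).toSphere univ = d * (volume : Measure (E d)) (ball 0 1) := by
  rw [Measure.toSphere_apply_univ]; simp

theorem toSphere_univ_ne_zero {d : ℕ} (hd : 1 ≤ d) :
    (volume : Measure (E d)).toSphere univ ≠ 0 := by
  rw [toSphere_univ_eq]
  refine mul_ne_zero ?_ (measure_ball_pos _ _ one_pos).ne'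
  exact_mod_cast (by omega : d ≠ 0)

/-- TASK P309-SPHERE (three statements). -/
theorem isProb_unifSphere {d : ℕ} (hd : 1 ≤ d) : IsProbabilityMeasure (unifSphere d) := by
  refine ⟨?_⟩
  rw [unifSphere, unifSphereOf, Measure.smul_apply, Measure.map_apply measurable_subtype_coe .univ,
    preimage_univ, smul_eq_mul]
  exact ENNReal.inv_mul_cancel (toSphere_univ_ne_zero hd) (measure_ne_top _ _)

theorem unifSphere_norm (d : ℕ) : unifSphere d {s | ‖s‖ ≠ 1} = 0 := by
  have hm : MeasurableSet {s : E d | ‖s‖ ≠ 1} :=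
    (measurableSet_eq_fun measurable_norm measurable_const).compl
  rw [unifSphere, unifSphereOf, Measure.smul_apply, Measure.map_apply measurable_subtype_coe hm]
  have : (Subtype.val : sphere (0 : E d) 1 → E d) ⁻¹' {s | ‖s‖ ≠ 1} = ∅ := by
    ext s
    simp
  rw [this]
  simp

theorem unifSphere_ball {d : ℕ} (hd : 1 ≤ d) (x : E d) {t : ℝ} (ht : 0 < t) (ht1 : t ≤ 1) :
    unifSphere d (closedBall x t) ≤ 2 ^ (d + 1) * ENNReal.ofReal t ^ (d - 1) := by
  obtain ⟨N, hN⟩ : ∃ N : ℕ, N = ⌈1 / t⌉₊ := ⟨_, rfl⟩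
  have hN1 : 1 / t ≤ N := hN ▸ Nat.le_ceil _
  have hN2 : (N : ℝ) ≤ 2 / t := by
    have h1 : (N : ℝ) < 1 / t + 1 := hN ▸ Nat.ceil_lt_add_one (by positivity)
    have h2 : 1 ≤ 1 / t := by rw [le_div_iff₀ ht]; linarith
    have h3 : 2 / t = 1 / t + 1 / t := by ring
    linarith
  have hNpos : (0 : ℝ) < N := lt_of_lt_of_le (by positivity) hN1
  have hsub : (Ioo (0 : ℝ) 1 • ((↑) '' ((Subtype.val : sphere (0 : E d) 1 → E d) ⁻¹' closedBall x t))
      : Set (E d)) ⊆ ⋃ j ∈ Finset.Icc 1 N, closedBall (((j : ℝ) / N) • x) (2 * t) := by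
    rintro _ ⟨r, ⟨hr0, hr1⟩, _, ⟨w, hw, rfl⟩, rfl⟩
    have hw' : ‖(w : E d) - x‖ ≤ t := by
      rw [← dist_eq_norm]; exact hw
    have hwn : ‖(w : E d)‖ = 1 := by simp
    obtain ⟨j, hj⟩ : ∃ j : ℕ, j = ⌈(N : ℝ) * r⌉₊ := ⟨_, rfl⟩
    have hNr : 0 < (N : ℝ) * r := by positivity
    have hj1 : (N : ℝ) * r ≤ j := hj ▸ Nat.le_ceil _
    have hj2 : (j : ℝ) < N * r + 1 := hj ▸ Nat.ceil_lt_add_one hNr.le
    have hjpos : 1 ≤ j := by
      have : (0 : ℝ) < j := lt_of_lt_of_le hNr hj1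
      exact_mod_cast this
    have hjN : j ≤ N := by
      rw [hj]
      refine Nat.ceil_le.2 ?_
      nlinarith
    refine mem_iUnion₂.2 ⟨j, Finset.mem_Icc.2 ⟨hjpos, hjN⟩, ?_⟩
    rw [mem_closedBall, dist_eq_norm]
    have hq1 : |r - (j : ℝ) / N| ≤ t := by
      have e : r - (j : ℝ) / N = -((j - N * r) / N) := by field_simp; ring
      rw [e, abs_neg, abs_of_nonneg (div_nonneg (by linarith) hNpos.le), div_le_iff₀ hNpos]
      have h5 : 1 ≤ t * N := by
        rw [div_le_iff₀ ht] at hN1; linarith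
      linarith
    have hq2 : (j : ℝ) / N ≤ 1 := by
      rw [div_le_one hNpos]; exact_mod_cast hjN
    have hq3 : 0 ≤ (j : ℝ) / N := by positivity
    calc ‖r • (w : E d) - ((j : ℝ) / N) • x‖
        = ‖(r - (j : ℝ) / N) • (w : E d) + ((j : ℝ) / N) • ((w : E d) - x)‖ := by
          congr 1
          rw [sub_smul, smul_sub]; abel
      _ ≤ |r - (j : ℝ) / N| * ‖(w : E d)‖ + ((j : ℝ) / N) * ‖(w : E d) - x‖ := by
          refine (norm_add_le _ _).trans ?_
          rw [norm_smul, norm_smul, Real.norm_eq_abs, Real.norm_eq_abs, abs_of_nonneg hq3]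
      _ ≤ t * 1 + 1 * t := by
          rw [hwn]
          gcongr
      _ = 2 * t := by ring
  have hvol : (volume : Measure (E d)) (Ioo (0 : ℝ) 1 •
      ((↑) '' ((Subtype.val : sphere (0 : E d) 1 → E d) ⁻¹' closedBall x t)) : Set (E d)) ≤
      2 ^ (d + 1) * ENNReal.ofReal t ^ (d - 1) * (volume : Measure (E d)) (ball 0 1) := by
    calc _ ≤ (volume : Measure (E d)) (⋃ j ∈ Finset.Icc 1 N, closedBall (((j : ℝ) / N) • x) (2 * t)) :=
          measure_mono hsub
      _ ≤ ∑ j ∈ Finset.Icc 1 N, (volume : Measure (E d)) (closedBall (((j : ℝ) / N) • x) (2 * t)) :=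
          measure_biUnion_finset_le _ _
      _ = ∑ _j ∈ Finset.Icc 1 N, ENNReal.ofReal ((2 * t) ^ d) * (volume : Measure (E d)) (ball 0 1) := by
          refine Finset.sum_congr rfl fun j _ => ?_
          rw [Measure.addHaar_closedBall _ _ (by positivity : (0 : ℝ) ≤ 2 * t)]
          simp
      _ = (N : ℝ≥0∞) * (ENNReal.ofReal ((2 * t) ^ d) * (volume : Measure (E d)) (ball 0 1)) := by
          simp
      _ = ENNReal.ofReal (N * (2 * t) ^ d) * (volume : Measure (E d)) (ball 0 1) := by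
          rw [ENNReal.ofReal_mul hNpos.le, ENNReal.ofReal_natCast, mul_assoc]
      _ ≤ ENNReal.ofReal (2 ^ (d + 1) * t ^ (d - 1)) * (volume : Measure (E d)) (ball 0 1) := by
          have e : 2 ^ (d + 1) * t ^ (d - 1) = (2 / t) * (2 * t) ^ d := by
            obtain ⟨e, rfl⟩ : ∃ e, d = e + 1 := ⟨d - 1, by omega⟩
            simp only [Nat.add_sub_cancel]
            field_simp
            ring
          rw [e]
          gcongr
      _ = _ := by
          rw [ENNReal.ofReal_mul (by positivity), ENNReal.ofReal_pow (by norm_num),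
            ENNReal.ofReal_pow ht.le]
          simp
  have hmeas : MeasurableSet ((Subtype.val : sphere (0 : E d) 1 → E d) ⁻¹' closedBall x t) :=
    measurable_subtype_coe measurableSet_closedBall
  rw [unifSphere, unifSphereOf, Measure.smul_apply, Measure.map_apply measurable_subtype_coe
    measurableSet_closedBall, smul_eq_mul, Measure.toSphere_apply' _ hmeas, toSphere_univ_eq]
  have hfin : Module.finrank ℝ (E d) = d := by simp
  rw [hfin]
  have hd0 : (d : ℝ≥0∞) ≠ 0 := by exact_mod_cast (by omega : d ≠ 0)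
  have hB0 : (volume : Measure (E d)) (ball 0 1) ≠ 0 := (measure_ball_pos _ _ one_pos).ne'
  have hBt : (volume : Measure (E d)) (ball 0 1) ≠ ⊤ := measure_ball_lt_top.ne
  calc _ ≤ ((d : ℝ≥0∞) * (volume : Measure (E d)) (ball 0 1))⁻¹ * (d * (2 ^ (d + 1) *
        ENNReal.ofReal t ^ (d - 1) * (volume : Measure (E d)) (ball 0 1))) := by
        gcongr
    _ = (((d : ℝ≥0∞) * (volume : Measure (E d)) (ball 0 1))⁻¹ *
        ((d : ℝ≥0∞) * (volume : Measure (E d)) (ball 0 1))) *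
          (2 ^ (d + 1) * ENNReal.ofReal t ^ (d - 1)) := by ring
    _ = _ := by
        rw [ENNReal.inv_mul_cancel (mul_ne_zero hd0 hB0)
          (ENNReal.mul_ne_top (ENNReal.natCast_ne_top d) hBt), one_mul]

theorem cap_subset {d : ℕ} (v : E d) (hv : ‖v‖ = 1) {ε : ℝ} (hε : 0 < ε) (s : E d)
    (hs : ‖s‖ = 1) (h : Real.arccos ⟪v, s⟫ ≤ ε) : s ∈ closedBall v ε := by
  rw [mem_closedBall, dist_eq_norm]
  have h1 : |⟪v, s⟫| ≤ 1 := by
    have := abs_real_inner_le_norm v s
    rwa [hv, hs, one_mul] at this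
  have h2 : Real.cos (Real.arccos ⟪v, s⟫) = ⟪v, s⟫ :=
    Real.cos_arccos (abs_le.1 h1).1 (abs_le.1 h1).2
  have h3 := Real.one_sub_sq_div_two_le_cos (x := Real.arccos ⟪v, s⟫)
  rw [h2] at h3
  have h4 : ‖s - v‖ ^ 2 = 2 - 2 * ⟪v, s⟫ := by
    rw [norm_sub_sq_real, hv, hs, real_inner_comm]
    ring
  have h5 : (Real.arccos ⟪v, s⟫) ^ 2 ≤ ε ^ 2 :=
    pow_le_pow_left₀ (Real.arccos_nonneg _) h 2
  have h6 : ‖s - v‖ ^ 2 ≤ ε ^ 2 := by
    rw [h4]
    linarith
  exact (pow_le_pow_iff_left₀ (norm_nonneg _) hε.le two_ne_zero).1 h6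

/-- TASK P309-CAP: the Frostman bound for the uniform law restricted to a cap of angle `ε`. -/
theorem cap_frost {d u : ℕ} (hu : 1 ≤ u) (hd : 8 * u ≤ d) (v : E d) (hv : ‖v‖ = 1) {ε : ℝ}
    (hε : 0 < ε) (hε1 : ε ≤ 1) :
    Frost ((unifSphere d).withDensity
      ({s : E d | Real.arccos ⟪v, s⟫ ≤ ε}.indicator fun _ => (1 : ℝ≥0∞)))
      (2 ^ (d + 1) * ENNReal.ofReal ε ^ (d - 1 - 4 * u)) (4 * u) := by
  intro x r hr
  have hd1 : 1 ≤ d := by omega
  rw [withDensity_apply _ measurableSet_closedBall]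
  have hle : ∫⁻ s in closedBall x r,
      ({s : E d | Real.arccos ⟪v, s⟫ ≤ ε}.indicator fun _ => (1 : ℝ≥0∞)) s ∂(unifSphere d) ≤
      unifSphere d ({s : E d | Real.arccos ⟪v, s⟫ ≤ ε} ∩ closedBall x r) := by
    refine (lintegral_indicator_const_le _ _).trans ?_
    rw [one_mul, Measure.restrict_apply' measurableSet_closedBall]
  refine hle.trans ?_
  rcases le_or_gt r ε with h | h
  · calc unifSphere d ({s : E d | Real.arccos ⟪v, s⟫ ≤ ε} ∩ closedBall x r)
        ≤ unifSphere d (closedBall x r) := measure_mono Set.inter_subset_right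
      _ ≤ 2 ^ (d + 1) * ENNReal.ofReal r ^ (d - 1) := unifSphere_ball hd1 x hr (h.trans hε1)
      _ = 2 ^ (d + 1) * (ENNReal.ofReal r ^ (d - 1 - 4 * u) * ENNReal.ofReal r ^ (4 * u)) := by
          rw [← pow_add]
          congr 2
          omega
      _ ≤ 2 ^ (d + 1) * (ENNReal.ofReal ε ^ (d - 1 - 4 * u) * ENNReal.ofReal r ^ (4 * u)) := by
          gcongr
      _ = _ := by ring
  · calc unifSphere d ({s : E d | Real.arccos ⟪v, s⟫ ≤ ε} ∩ closedBall x r)
        ≤ unifSphere d (closedBall v ε ∪ {s | ‖s‖ ≠ 1}) := by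
          refine measure_mono ?_
          rintro s ⟨hs, -⟩
          by_cases h1 : ‖s‖ = 1
          · exact Or.inl (cap_subset v hv hε s h1 hs)
          · exact Or.inr h1
      _ ≤ unifSphere d (closedBall v ε) + unifSphere d {s | ‖s‖ ≠ 1} := measure_union_le _ _
      _ = unifSphere d (closedBall v ε) := by rw [unifSphere_norm, add_zero]
      _ ≤ 2 ^ (d + 1) * ENNReal.ofReal ε ^ (d - 1) := unifSphere_ball hd1 v hε hε1
      _ = 2 ^ (d + 1) * (ENNReal.ofReal ε ^ (d - 1 - 4 * u) * ENNReal.ofReal ε ^ (4 * u)) := by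
          rw [← pow_add]
          congr 2
          omega
      _ ≤ 2 ^ (d + 1) * (ENNReal.ofReal ε ^ (d - 1 - 4 * u) * ENNReal.ofReal r ^ (4 * u)) := by
          gcongr
      _ = _ := by ring

end P309
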