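import Vale.Agent.P309.USplit
import Vale.Agent.P309.Sphere

open MeasureTheory ProbabilityTheory Metric Set
open scoped ENNReal RealInnerProductSpace

namespace P309

instance cfgDiscrete (M : ℕ) : DiscreteMeasurableSpace (Cfg M) := by
  refine ⟨fun s => ?_⟩
  rw [measurableSet_sum_iff]
  exact ⟨MeasurableSet.of_discrete, MeasurableSet.of_discrete⟩

variable {Ω : Type*} [MeasurableSpace Ω] {d M : ℕ}

/-- The step function for a fixed seed, frozen after time `T`. -/
def stT (L : Learner Ω d M) (ω : Ω) (T : ℕ) (t : ℕ) (c : Cfg M) (x : E d) (y : ℝ) : Cfg M :=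
  if t < T then stepCfg L ω t c x y else c

/-- The success indicator. -/
noncomputable def fT (L : Learner Ω d M) (ω : Ω) (T : ℕ) (ε : ℝ) (c : Cfg M) : E d → ℝ≥0∞ :=
  {s : E d | Real.arccos ⟪guess L ω T c, s⟫ ≤ ε}.indicator fun _ => (1 : ℝ≥0∞)

/-- The set of configurations reachable from `inl` at time `t` in `n` steps. -/
def reachSet (M t n : ℕ) : Finset (Cfg M) :=
  (Finset.univ : Finset (Fin (2 ^ M))).image Sum.inl ∪
    ((Finset.univ : Finset (Fin (2 ^ M) × Fin n)).image fun p => Sum.inr (p.1, t + 1 + p.2))

theorem reachSet_card (M t n : ℕ) : (reachSet M t n).card ≤ 2 ^ M * (n + 1) := by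
  unfold reachSet
  refine (Finset.card_union_le _ _).trans ?_
  have h1 := Finset.card_image_le (s := (Finset.univ : Finset (Fin (2 ^ M))))
    (f := (Sum.inl : _ → Cfg M))
  have h2 := Finset.card_image_le (s := (Finset.univ : Finset (Fin (2 ^ M) × Fin n)))
    (f := fun p => (Sum.inr (p.1, t + 1 + p.2) : Cfg M))
  simp only [Finset.card_univ, Fintype.card_fin, Fintype.card_prod] at h1 h2
  calc _ ≤ 2 ^ M + 2 ^ M * n := add_le_add h1 h2
    _ = 2 ^ M * (n + 1) := by ring

theorem inl_mem_reachSet (M t n : ℕ) (m : Fin (2 ^ M)) : (Sum.inl m : Cfg M) ∈ reachSet M t n := by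
  simp [reachSet]

theorem inr_mem_reachSet {M t n : ℕ} (m : Fin (2 ^ M)) {k : ℕ} (h1 : t < k) (h2 : k ≤ t + n) :
    (Sum.inr (m, k) : Cfg M) ∈ reachSet M t n := by
  simp only [reachSet, Finset.mem_union, Finset.mem_image, Finset.mem_univ, true_and]
  right
  exact ⟨(m, ⟨k - t - 1, by omega⟩), by simp; omega⟩

theorem reachSet_mono {M t n : ℕ} {c : Cfg M} (h : c ∈ reachSet M t n) : c ∈ reachSet M t (n + 1) := by
  simp only [reachSet, Finset.mem_union, Finset.mem_image, Finset.mem_univ, true_and] at h
  rcases h with ⟨m, rfl⟩ | ⟨⟨m, j⟩, rfl⟩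
  · exact inl_mem_reachSet _ _ _ _
  · exact inr_mem_reachSet m (by simp; omega) (by have := j.2; simp; omega)

/-- TASK P309-REACH. -/
theorem stT_reach (L : Learner Ω d M) (ω : Ω) (T u t : ℕ) (c : Cfg M) :
    ∃ S : Finset (Cfg M), S.card ≤ 2 ^ M * (u + 1) ∧
      ∀ X y, runC (stT L ω T) t c u X y ∈ S := by
  rcases c with m | h
  · refine ⟨reachSet M t u, reachSet_card M t u, ?_⟩
    induction u with
    | zero => intro X y; exact inl_mem_reachSet _ _ _ _
    | succ n ih =>
      intro X y
      have h := ih (fun j => X j.castSucc) (fun j => y j.castSucc)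
      show stT L ω T (t + n) (runC (stT L ω T) t (Sum.inl m) n (fun j => X j.castSucc)
        (fun j => y j.castSucc)) (X (Fin.last n)) (y (Fin.last n)) ∈ _
      generalize runC (stT L ω T) t (Sum.inl m) n (fun j => X j.castSucc)
        (fun j => y j.castSucc) = c at h
      unfold stT
      split_ifs with hT
      · rcases c with m' | h'
        · simp only [stepCfg]
          split_ifs
          · exact inr_mem_reachSet _ (by omega) (by omega)
          · exact inl_mem_reachSet _ _ _ _
        · exact reachSet_mono h
      · exact reachSet_mono h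
  · refine ⟨{Sum.inr h}, ?_, ?_⟩
    · simp only [Finset.card_singleton]
      exact Nat.one_le_iff_ne_zero.2 (by positivity)
    · induction u with
      | zero => intro X y; simp [runC]
      | succ n ih =>
        intro X y
        have h' := ih (fun j => X j.castSucc) (fun j => y j.castSucc)
        rw [Finset.mem_singleton] at h' ⊢
        show stT L ω T (t + n) (runC (stT L ω T) t (Sum.inr h) n (fun j => X j.castSucc)
          (fun j => y j.castSucc)) (X (Fin.last n)) (y (Fin.last n)) = _
        rw [h']
        unfold stT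
        split_ifs <;> rfl

theorem stepCfg_meas_joint (L : Learner Ω d M) (t : ℕ) (c : Cfg M) :
    Measurable fun p : Ω × E d × ℝ => stepCfg L p.1 t c p.2.1 p.2.2 := by
  rcases c with m | h
  · simp only [stepCfg]
    refine Measurable.ite ?_ ?_ ?_
    · exact (L.halt_meas t m) (MeasurableSet.of_discrete (s := ({true} : Set Bool)))
    · have h1 : Measurable fun p : Ω × E d × ℝ => (L.next t m (p.1, p.2.1, p.2.2)) := L.next_meas t m
      exact (Measurable.of_discrete (f := fun m' : Fin (2 ^ M) => (Sum.inr (m', t + 1) : Cfg M))).comp h1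
    · have h1 : Measurable fun p : Ω × E d × ℝ => (L.next t m (p.1, p.2.1, p.2.2)) := L.next_meas t m
      exact (Measurable.of_discrete (f := fun m' : Fin (2 ^ M) => (Sum.inl m' : Cfg M))).comp h1
  · exact measurable_const

theorem stT_meas (L : Learner Ω d M) (ω : Ω) (T t : ℕ) (c : Cfg M) :
    Measurable fun p : E d × ℝ => stT L ω T t c p.1 p.2 := by
  unfold stT
  split_ifs with h
  · have := stepCfg_meas_joint L t c
    exact this.comp (measurable_prodMk_left (x := ω))
  · exact measurable_const

/-- `run` is the generic process with the frozen steps. -/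
theorem run_eq_runC (L : Learner Ω d M) (ω : Ω) (T n : ℕ) (hn : n ≤ T) (X : Fin n → E d)
    (y : Fin n → ℝ) : run L ω n X y = runC (stT L ω T) 0 (Sum.inl (L.init ω)) n X y := by
  induction n with
  | zero => rfl
  | succ n ih =>
    simp only [run, runC]
    rw [ih (by omega), stT, if_pos (by omega), Nat.zero_add]

/-- joint measurability of `run` -/
theorem run_meas (L : Learner Ω d M) (n : ℕ) :
    Measurable fun p : Ω × (Fin n → E d) × (Fin n → ℝ) => run L p.1 n p.2.1 p.2.2 := by
  induction n with
  | zero =>
    simp only [run]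
    exact (Measurable.of_discrete (f := fun m : Fin (2 ^ M) => (Sum.inl m : Cfg M))).comp
      (L.init_meas.comp measurable_fst)
  | succ n ih =>
    simp only [run]
    -- uncurry over the countable configuration
    have hstep : Measurable fun q : Cfg M × (Ω × E d × ℝ) => stepCfg L q.2.1 n q.1 q.2.2.1 q.2.2.2 :=
      measurable_from_prod_countable_right fun c => stepCfg_meas_joint L n c
    have hprev : Measurable fun p : Ω × (Fin (n + 1) → E d) × (Fin (n + 1) → ℝ) =>
        run L p.1 n (fun j => p.2.1 j.castSucc) (fun j => p.2.2 j.castSucc) := by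
      refine ih.comp (Measurable.prodMk measurable_fst (Measurable.prodMk ?_ ?_))
      · exact measurable_pi_lambda _ fun j =>
          (measurable_pi_apply _).comp (measurable_fst.comp measurable_snd)
      · exact measurable_pi_lambda _ fun j =>
          (measurable_pi_apply _).comp (measurable_snd.comp measurable_snd)
    refine hstep.comp (Measurable.prodMk hprev (Measurable.prodMk measurable_fst
      (Measurable.prodMk ?_ ?_)))
    · exact (measurable_pi_apply _).comp (measurable_fst.comp measurable_snd)
    · exact (measurable_pi_apply _).comp (measurable_snd.comp measurable_snd)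

theorem guess_meas (L : Learner Ω d M) (T : ℕ) (c : Cfg M) :
    Measurable fun ω => guess L ω T c := by
  rcases c with m | ⟨m, t⟩
  · exact L.out_meas T m
  · exact L.out_meas t m

theorem fT_meas (L : Learner Ω d M) (ω : Ω) (T : ℕ) (ε : ℝ) (c : Cfg M) :
    Measurable (fT L ω T ε c) := by
  unfold fT
  refine measurable_const.indicator ?_
  exact measurableSet_le (Real.measurable_arccos.comp (by fun_prop)) measurable_const

theorem fT_le_one (L : Learner Ω d M) (ω : Ω) (T : ℕ) (ε : ℝ) (c : Cfg M) (s : E d) :
    fT L ω T ε c s ≤ 1 := by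
  unfold fT
  exact indicator_le_self' (fun _ _ => zero_le_one) _ |>.trans le_rfl

/-- after the horizon the value function is the success indicator -/
theorem U_frozen (L : Learner Ω d M) (ω : Ω) (T : ℕ) (f : Cfg M → E d → ℝ≥0∞) (k t : ℕ) (ht : T ≤ t)
    (c : Cfg M) (s : E d) : U (stT L ω T) f k t c s = f c s := by
  induction k generalizing t with
  | zero => rfl
  | succ k ih =>
    show ∫⁻ x, U (stT L ω T) f k (t + 1) (stT L ω T t c x ⟪x, s⟫) s ∂(stdGaussian (E d)) = f c s
    have : ∀ x : E d, stT L ω T t c x ⟪x, s⟫ = c := fun x => by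
      unfold stT; rw [if_neg (by omega)]
    simp only [this, ih (t + 1) (by omega)]
    simp

/-- TASK P309-CONNECT: the success probability as an integral of the value function. -/
theorem successProb_eq (L : Learner Ω d M) (P : Measure Ω) [IsProbabilityMeasure P] (T k : ℕ)
    (ε : ℝ) (hd : 1 ≤ d) :
    successProb L P T ε =
      ∫⁻ ω, ∫⁻ s, U (stT L ω T) (fT L ω T ε) (T + k) 0 (Sum.inl (L.init ω)) s
        ∂(unifSphere d) ∂P := by
  have := isProb_unifSphere hd
  -- the success event
  set F : Ω × E d × (Fin T → E d) → ℝ := fun p =>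
    Real.arccos ⟪guess L p.1 T (run L p.1 T p.2.2 (fun j => ⟪p.2.2 j, p.2.1⟫)), p.2.1⟫ with hF
  have hrun : Measurable fun p : Ω × E d × (Fin T → E d) =>
      run L p.1 T p.2.2 (fun j => ⟪p.2.2 j, p.2.1⟫) := by
    refine (run_meas L T).comp (Measurable.prodMk measurable_fst (Measurable.prodMk
      (measurable_snd.comp measurable_snd) ?_))
    refine measurable_pi_lambda _ fun j => ?_
    exact Measurable.inner ((measurable_pi_apply j).comp (measurable_snd.comp measurable_snd))
      (measurable_fst.comp measurable_snd)
  have hg : Measurable fun p : Ω × E d × (Fin T → E d) =>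
      guess L p.1 T (run L p.1 T p.2.2 (fun j => ⟪p.2.2 j, p.2.1⟫)) := by
    have h1 : Measurable fun q : Cfg M × Ω => guess L q.2 T q.1 :=
      measurable_from_prod_countable_right fun c => guess_meas L T c
    exact h1.comp (Measurable.prodMk hrun measurable_fst)
  have hFm : Measurable F :=
    Real.measurable_arccos.comp (Measurable.inner hg (measurable_fst.comp measurable_snd))
  have hset : MeasurableSet {p | F p ≤ ε} := measurableSet_le hFm measurable_const
  have e0 : successProb L P T ε = ∫⁻ p, ({p | F p ≤ ε}.indicator (fun _ => (1 : ℝ≥0∞)) p)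
      ∂(P.prod ((unifSphere d).prod (Measure.pi fun _ : Fin T => stdGaussian (E d)))) := by
    rw [lintegral_indicator hset, setLIntegral_const, one_mul]; rfl
  have hind : Measurable ({p | F p ≤ ε}.indicator (fun _ => (1 : ℝ≥0∞))) :=
    measurable_const.indicator hset
  rw [e0, lintegral_prod _ hind.aemeasurable]
  refine lintegral_congr fun ω => ?_
  have hind' : Measurable fun y : E d × (Fin T → E d) =>
      {p | F p ≤ ε}.indicator (fun _ => (1 : ℝ≥0∞)) (ω, y) := hind.comp measurable_prodMk_left
  rw [lintegral_prod _ hind'.aemeasurable]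
  refine lintegral_congr fun s => ?_
  rw [U_split (fun t c => stT_meas L ω T t c) (fun c => fT_meas L ω T ε c)]
  refine lintegral_congr fun X => ?_
  rw [U_frozen L ω T _ k (0 + T) (by omega), ← run_eq_runC L ω T T le_rfl]
  simp only [fT, hF, Set.indicator, mem_ofPred_eq]

end P309
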