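import Vale.Agent.P309.Basic

open MeasureTheory ProbabilityTheory Metric Set
open scoped ENNReal RealInnerProductSpace

namespace P309

namespace CoverAux

theorem card_sep {F : Type*} [NormedAddCommGroup F] [InnerProductSpace ℝ F]
    [FiniteDimensional ℝ F] (c : F) {R t : ℝ} (ht : 0 < t) (hR : 0 ≤ R) (s : Finset F)
    (hs : ∀ a ∈ s, a ∈ closedBall c R) (h : ∀ a ∈ s, ∀ b ∈ s, a ≠ b → t < dist a b) :
    (s.card : ℝ) ≤ (1 + 2 * R / t) ^ (Module.finrank ℝ F) := by
  borelize F
  let μ : Measure F := Measure.addHaar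
  have hδ : 0 < t / 2 := by positivity
  have hρ : 0 < R + t / 2 := by positivity
  have D : Set.Pairwise (s : Set F) (Function.onFun Disjoint fun a => ball (a : F) (t / 2)) := by
    intro a ha b hb hab
    apply ball_disjoint_ball
    have := h a ha b hb hab
    linarith
  have hsub : (⋃ a ∈ s, ball (a : F) (t / 2)) ⊆ ball c (R + t / 2) := by
    refine iUnion₂_subset fun x hx => ?_
    apply ball_subset_ball'
    have := hs x hx
    rw [mem_closedBall] at this
    linarith
  have I : (s.card : ℝ≥0∞) * ENNReal.ofReal ((t / 2) ^ Module.finrank ℝ F) * μ (ball 0 1) ≤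
      ENNReal.ofReal ((R + t / 2) ^ Module.finrank ℝ F) * μ (ball 0 1) :=
    calc
      (s.card : ℝ≥0∞) * ENNReal.ofReal ((t / 2) ^ Module.finrank ℝ F) * μ (ball 0 1) =
          μ (⋃ a ∈ s, ball (a : F) (t / 2)) := by
        rw [measure_biUnion_finset D fun c _ => measurableSet_ball]
        simp only [μ.addHaar_ball_of_pos _ hδ]
        simp only [Finset.sum_const, nsmul_eq_mul, mul_assoc]
      _ ≤ μ (ball c (R + t / 2)) := measure_mono hsub
      _ = ENNReal.ofReal ((R + t / 2) ^ Module.finrank ℝ F) * μ (ball 0 1) := by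
        simp only [μ.addHaar_ball_of_pos _ hρ]
  have J : (s.card : ℝ≥0∞) * ENNReal.ofReal ((t / 2) ^ Module.finrank ℝ F) ≤
      ENNReal.ofReal ((R + t / 2) ^ Module.finrank ℝ F) :=
    (ENNReal.mul_le_mul_iff_left (measure_ball_pos _ _ zero_lt_one).ne' measure_ball_lt_top.ne).1 I
  have K : (s.card : ℝ) * (t / 2) ^ Module.finrank ℝ F ≤ (R + t / 2) ^ Module.finrank ℝ F := by
    have h1 := ENNReal.toReal_le_of_le_ofReal (pow_nonneg hρ.le _) J
    rw [ENNReal.toReal_mul, ENNReal.toReal_natCast, ENNReal.toReal_ofReal (by positivity)] at h1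
    exact h1
  have h2 : (1 + 2 * R / t) = (R + t / 2) / (t / 2) := by
    field_simp
    ring
  rw [h2, div_pow, le_div_iff₀ (by positivity)]
  exact K

end CoverAux

/-- TASK P309-COVER. -/
theorem exists_cover {F : Type*} [NormedAddCommGroup F] [InnerProductSpace ℝ F]
    [FiniteDimensional ℝ F] (c : F) {R t : ℝ} (ht : 0 < t) (hR : 0 ≤ R) :
    ∃ C : Finset F, (C.card : ℝ) ≤ (1 + 2 * R / t) ^ (Module.finrank ℝ F) ∧
      closedBall c R ⊆ ⋃ z ∈ C, closedBall z t := by
  classical
  let P : ℕ → Prop := fun n => ∃ s : Finset F, s.card = n ∧ (∀ a ∈ s, a ∈ closedBall c R) ∧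
    ∀ a ∈ s, ∀ b ∈ s, a ≠ b → t < dist a b
  obtain ⟨N, hN⟩ := exists_nat_ge ((1 + 2 * R / t) ^ (Module.finrank ℝ F))
  have hbd : ∀ n, P n → n ≤ N := by
    rintro n ⟨s, rfl, h1, h2⟩
    have := (CoverAux.card_sep c ht hR s h1 h2).trans hN
    exact_mod_cast this
  have h0 : P 0 := ⟨∅, rfl, by simp, by simp⟩
  have hmax : P (Nat.findGreatest P N) := Nat.findGreatest_spec (Nat.zero_le N) h0
  obtain ⟨s, hcard, h1, h2⟩ := hmax
  refine ⟨s, CoverAux.card_sep c ht hR s h1 h2, ?_⟩
  intro x hx
  by_contra hcon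
  have hfar : ∀ z ∈ s, t < dist x z := by
    intro z hz
    by_contra hle
    apply hcon
    refine mem_iUnion₂.2 ⟨z, hz, ?_⟩
    rw [mem_closedBall]
    exact not_lt.1 hle
  have hxs : x ∉ s := by
    intro hxs
    have := hfar x hxs
    rw [dist_self] at this
    linarith
  have hP : P (Nat.findGreatest P N + 1) := by
    refine ⟨insert x s, ?_, ?_, ?_⟩
    · rw [Finset.card_insert_of_notMem hxs, hcard]
    · intro a ha
      rcases Finset.mem_insert.1 ha with rfl | ha
      · exact hx
      · exact h1 a ha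
    · intro a ha b hb hab
      rcases Finset.mem_insert.1 ha with ha' | ha'
      · rcases Finset.mem_insert.1 hb with hb' | hb'
        · exact absurd (ha'.trans hb'.symm) hab
        · rw [ha']
          exact hfar b hb'
      · rcases Finset.mem_insert.1 hb with hb' | hb'
        · rw [hb', dist_comm]
          exact hfar a ha'
        · exact h2 a ha' b hb' hab
  have hle := Nat.le_findGreatest (hbd _ hP) hP
  omega

end P309
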