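import Mathlib

/-!
# P309: memory-bounded learners for noiseless Gaussian linear regression
-/

open MeasureTheory ProbabilityTheory Metric Set
open scoped ENNReal RealInnerProductSpace

namespace P309

/-- Euclidean space `ℝ^d`. -/
abbrev E (d : ℕ) := EuclideanSpace ℝ (Fin d)

/-- The uniform probability law on the unit sphere of a Euclidean space `F` (normalized surface
measure), seen as a measure on `F`. -/
noncomputable def unifSphereOf (F : Type*) [NormedAddCommGroup F] [InnerProductSpace ℝ F]
    [FiniteDimensional ℝ F] [MeasurableSpace F] [BorelSpace F] : Measure F :=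
  ((volume : Measure F).toSphere univ)⁻¹ •
    ((volume : Measure F).toSphere.map (Subtype.val : sphere (0 : F) 1 → F))

/-- The uniform law on the unit sphere `S^{d-1}` of `ℝ^d`. -/
noncomputable abbrev unifSphere (d : ℕ) : Measure (E d) := unifSphereOf (E d)

/-- The joint law of the seed (law `P`), the signal (uniform on the unit sphere) and `T`
independent standard Gaussian rows. -/
noncomputable def jointLaw {Ω : Type*} [MeasurableSpace Ω] (P : Measure Ω) (F : Type*)
    [NormedAddCommGroup F] [InnerProductSpace ℝ F] [FiniteDimensional ℝ F] [MeasurableSpace F]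
    [BorelSpace F] (T : ℕ) : Measure (Ω × F × (Fin T → F)) :=
  P.prod ((unifSphereOf F).prod (Measure.pi fun _ : Fin T => stdGaussian F))

/-- The labels of the rows `x` for the signal `s`. -/
def labels {F : Type*} [NormedAddCommGroup F] [InnerProductSpace ℝ F] {T : ℕ} (x : Fin T → F)
    (s : F) : Fin T → ℝ :=
  fun j => ⟪x j, s⟫

/-- The angle between two unit vectors. -/
noncomputable def angle {F : Type*} [NormedAddCommGroup F] [InnerProductSpace ℝ F] (v s : F) : ℝ :=
  Real.arccos ⟪v, s⟫

/-- A learner with `M` bits of memory (state set `Fin (2 ^ M)`).  `Ω` is the probability space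
carrying all the internal randomness.  At index `t`, in state `m`, on reading the pair `(x, y)`,
the new state is `next t m (ω, x, y)`, and the learner stops if `halt t m (ω, x, y) = true`.
A learner which stops after `t` samples in state `m` outputs the unit vector `out t m ω`.
All rules depend on the index and are arbitrary measurable functions. -/
structure Learner (Ω : Type*) [MeasurableSpace Ω] (d M : ℕ) where
  init : Ω → Fin (2 ^ M)
  next : ℕ → Fin (2 ^ M) → Ω × E d × ℝ → Fin (2 ^ M)
  halt : ℕ → Fin (2 ^ M) → Ω × E d × ℝ → Bool
  out : ℕ → Fin (2 ^ M) → Ω → E d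
  init_meas : Measurable init
  next_meas : ∀ t m, Measurable (next t m)
  halt_meas : ∀ t m, Measurable (halt t m)
  out_meas : ∀ t m, Measurable (out t m)
  out_norm : ∀ t m ω, ‖out t m ω‖ = 1

/-- Configurations: `inl m` = still running, in state `m`;
`inr (m, t)` = stopped after `t` samples, in state `m`. -/
abbrev Cfg (M : ℕ) := Fin (2 ^ M) ⊕ (Fin (2 ^ M) × ℕ)

variable {Ω : Type*} [MeasurableSpace Ω] {d M : ℕ}

/-- One step of the learner, reading the pair `(x, y)` at index `t`. -/
def stepCfg (L : Learner Ω d M) (ω : Ω) (t : ℕ) (c : Cfg M) (x : E d) (y : ℝ) : Cfg M :=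
  match c with
  | Sum.inl m =>
      if L.halt t m (ω, x, y) = true then Sum.inr (L.next t m (ω, x, y), t + 1)
      else Sum.inl (L.next t m (ω, x, y))
  | Sum.inr h => Sum.inr h

/-- The configuration after reading the first `n` pairs `(x j, y j)`, from the initial state. -/
def run (L : Learner Ω d M) (ω : Ω) : (n : ℕ) → (Fin n → E d) → (Fin n → ℝ) → Cfg M
  | 0, _, _ => Sum.inl (L.init ω)
  | n + 1, x, y =>
      stepCfg L ω n (run L ω n (fun j => x j.castSucc) (fun j => y j.castSucc))
        (x (Fin.last n)) (y (Fin.last n))

/-- The output, at horizon `T`. -/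
def guess (L : Learner Ω d M) (ω : Ω) (T : ℕ) : Cfg M → E d
  | Sum.inl m => L.out T m ω
  | Sum.inr (m, t) => L.out t m ω

/-- The probability that the learner, run on `T` samples `(x_j, ⟪x_j, s⟫)` with `x_j` independent
standard Gaussian vectors and `s` uniform on the sphere (and internal randomness of law `P`), outputs
a unit vector at angle at most `ε` of `s`. -/
noncomputable def successProb (L : Learner Ω d M) (P : Measure Ω) (T : ℕ) (ε : ℝ) : ℝ≥0∞ :=
  jointLaw P (E d) T {p | angle (guess L p.1 T (run L p.1 T p.2.2 (labels p.2.2 p.2.1))) p.2.1 ≤ ε}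

end P309
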