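import Vale.Agent.P309.Connect

open MeasureTheory ProbabilityTheory Metric Set
open scoped ENNReal RealInnerProductSpace

namespace P309

/-- real version of `successProb_le`, after taking logarithms -/
theorem log_bound {d u M T n : ℕ} (hu : 1 ≤ u) (h1 : 8 * u ≤ d) (h2 : d < 16 * u)
    {ε : ℝ} (hε : 0 < ε) (hε1 : ε ≤ 1)
    (h : (2 / 3 : ℝ≥0∞) ≤
      ((((2 ^ M * (u + 1) : ℕ) : ℝ≥0∞) ^ ((1 : ℝ) / (2 * u + 1)) * 2 ^ (16 * u)) ^ n *
        (2 ^ (d + 1) * ENNReal.ofReal ε ^ (d - 1 - 4 * u)))) :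
    3 * u * Real.log (1 / ε) ≤ (n * ((M : ℝ) / (2 * u) + 17 * u) + 17 * u) * Real.log 2 := by
  have hu0 : (1 : ℝ) ≤ u := by exact_mod_cast hu
  set R : ℝ := (((2 ^ M * (u + 1) : ℕ) : ℝ) ^ ((1 : ℝ) / (2 * u + 1)) * 2 ^ (16 * u)) ^ n *
        (2 ^ (d + 1) * ε ^ (d - 1 - 4 * u)) with hR
  have hNpos : (0 : ℝ) < ((2 ^ M * (u + 1) : ℕ) : ℝ) := by positivity
  have e : ((((2 ^ M * (u + 1) : ℕ) : ℝ≥0∞) ^ ((1 : ℝ) / (2 * u + 1)) * 2 ^ (16 * u)) ^ n *
        (2 ^ (d + 1) * ENNReal.ofReal ε ^ (d - 1 - 4 * u))) = ENNReal.ofReal R := by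
    rw [hR, ENNReal.ofReal_mul (by positivity), ENNReal.ofReal_pow (by positivity),
      ENNReal.ofReal_mul (by positivity), ENNReal.ofReal_mul (by positivity),
      ENNReal.ofReal_pow (by positivity), ENNReal.ofReal_pow (by positivity),
      ENNReal.ofReal_pow (by positivity), ← ENNReal.ofReal_rpow_of_pos hNpos,
      ENNReal.ofReal_natCast, ENNReal.ofReal_ofNat]
  rw [e] at h
  have hRpos : 0 < R := by rw [hR]; positivity
  have h23 : (2 / 3 : ℝ) ≤ R := by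
    have h3 : ENNReal.ofReal (2 / 3 : ℝ) = (2 / 3 : ℝ≥0∞) := by
      rw [ENNReal.ofReal_div_of_pos (by norm_num)]; simp
    rw [← h3] at h
    exact (ENNReal.ofReal_le_ofReal_iff hRpos.le).1 h
  have hlog2 : 0 < Real.log 2 := Real.log_pos (by norm_num)
  have hl : -Real.log 2 ≤ Real.log R := by
    rw [← Real.log_inv]
    exact Real.log_le_log (by norm_num) (le_trans (by norm_num) h23)
  have hlogR : Real.log R = n * ((1 / (2 * u + 1)) * Real.log ((2 ^ M * (u + 1) : ℕ) : ℝ) +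
      16 * u * Real.log 2) + ((d + 1) * Real.log 2 + ((d - 1 - 4 * u : ℕ) : ℝ) * Real.log ε) := by
    rw [hR, Real.log_mul (by positivity) (by positivity), Real.log_pow,
      Real.log_mul (by positivity) (by positivity), Real.log_rpow hNpos, Real.log_pow,
      Real.log_mul (by positivity) (by positivity), Real.log_pow, Real.log_pow]
    push_cast; ring
  have hlogN : Real.log ((2 ^ M * (u + 1) : ℕ) : ℝ) ≤ (M + u) * Real.log 2 := by
    have : ((2 ^ M * (u + 1) : ℕ) : ℝ) ≤ (2 : ℝ) ^ (M + u) := by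
      have h4 : u + 1 ≤ 2 ^ u := Nat.lt_two_pow_self
      have h5 : 2 ^ M * (u + 1) ≤ 2 ^ (M + u) := by
        rw [pow_add]; exact Nat.mul_le_mul_left _ h4
      exact_mod_cast h5
    calc _ ≤ Real.log ((2 : ℝ) ^ (M + u)) := Real.log_le_log hNpos this
      _ = _ := by rw [Real.log_pow]; push_cast; ring
  have hcoef : (1 / (2 * (u : ℝ) + 1)) * Real.log ((2 ^ M * (u + 1) : ℕ) : ℝ) ≤
      ((M : ℝ) / (2 * u) + u) * Real.log 2 := by
    have hM : (0 : ℝ) ≤ M := Nat.cast_nonneg M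
    have h6 : (1 / (2 * (u : ℝ) + 1)) * (M + u) ≤ (M : ℝ) / (2 * u) + u := by
      have h7 : (1 / (2 * (u : ℝ) + 1)) ≤ 1 / (2 * u) :=
        one_div_le_one_div_of_le (by linarith) (by linarith)
      calc (1 / (2 * (u : ℝ) + 1)) * (M + u) ≤ 1 / (2 * u) * (M + u) :=
            mul_le_mul_of_nonneg_right h7 (by linarith)
        _ = M / (2 * u) + 1 / 2 := by field_simp
        _ ≤ _ := by linarith
    calc _ ≤ (1 / (2 * (u : ℝ) + 1)) * ((M + u) * Real.log 2) :=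
          mul_le_mul_of_nonneg_left hlogN (by positivity)
      _ = (1 / (2 * (u : ℝ) + 1)) * (M + u) * Real.log 2 := by ring
      _ ≤ _ := mul_le_mul_of_nonneg_right h6 hlog2.le
  have hlogε : Real.log ε = -Real.log (1 / ε) := by rw [one_div, Real.log_inv, neg_neg]
  have hLnn : 0 ≤ Real.log (1 / ε) :=
    Real.log_nonneg (by rw [one_div]; exact (one_le_inv₀ hε).2 hε1)
  have hexp : (3 * u : ℝ) ≤ ((d - 1 - 4 * u : ℕ) : ℝ) := by
    have : 3 * u ≤ d - 1 - 4 * u := by omega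
    exact_mod_cast this
  have hdd : (d : ℝ) + 2 ≤ 17 * u := by
    have : d + 2 ≤ 17 * u := by omega
    exact_mod_cast this
  have hn : (0 : ℝ) ≤ n := Nat.cast_nonneg n
  rw [hlogR, hlogε] at hl
  have h8 : (3 * u : ℝ) * Real.log (1 / ε) ≤ ((d - 1 - 4 * u : ℕ) : ℝ) * Real.log (1 / ε) :=
    mul_le_mul_of_nonneg_right hexp hLnn
  have h9 : (n : ℝ) * ((1 / (2 * u + 1)) * Real.log ((2 ^ M * (u + 1) : ℕ) : ℝ) +
      16 * u * Real.log 2) ≤ n * (((M : ℝ) / (2 * u) + u) * Real.log 2 + 16 * u * Real.log 2) :=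
    mul_le_mul_of_nonneg_left (by linarith) hn
  have h10 : ((d : ℝ) + 2) * Real.log 2 ≤ 17 * u * Real.log 2 :=
    mul_le_mul_of_nonneg_right hdd hlog2.le
  have h11 : (n : ℝ) * (((M : ℝ) / (2 * u) + u) * Real.log 2 + 16 * u * Real.log 2) =
      n * ((M : ℝ) / (2 * u) + 17 * u) * Real.log 2 := by ring
  nlinarith [h8, h9, h10, h11, hl]

/-- TASK P309-FINAL (numerics, uses `successProb_le`): explicit trade-off. -/
theorem tradeoff : ∃ c₀ : ℝ, 0 < c₀ ∧ ∀ d : ℕ, 8 ≤ d → ∀ ε : ℝ, 0 < ε → ε ≤ 1 / 2 ^ 40 →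
    ∀ (M T : ℕ) (Ω : Type) [MeasurableSpace Ω] (P : Measure Ω) [IsProbabilityMeasure P]
      (L : Learner Ω d M), 2 / 3 ≤ successProb L P T ε →
      c₀ * d * Real.log (1 / ε) ≤ (T + d) * (1 + M / (d : ℝ) ^ 2) := by
  refine ⟨1 / 1024, by norm_num, ?_⟩
  intro d hd ε hε hε40 M T Ω _ P _ L hs
  obtain ⟨u, hu⟩ : ∃ u, u = d / 8 := ⟨_, rfl⟩
  have hu1 : 1 ≤ u := by omega
  have h1 : 8 * u ≤ d := by omega
  have h2 : d < 16 * u := by omega
  have hε1 : ε ≤ 1 := hε40.trans (by norm_num)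
  set n := T / u + 1 with hn
  have hT : T ≤ n * u := by
    rw [hn]
    have := Nat.div_add_mod T u
    have h3 := Nat.mod_lt T (show u > 0 by omega)
    nlinarith
  have hb := log_bound (n := n) (M := M) (T := T) hu1 h1 h2 hε hε1
    (hs.trans (successProb_le hu1 h1 h2 L P T n hT hε hε1))
  have hlog2 : 0 < Real.log 2 := Real.log_pos (by norm_num)
  have hlog2' : Real.log 2 ≤ 1 := by
    have := Real.log_two_lt_d9; linarith
  set ℓ := Real.log (1 / ε) with hℓ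
  have hℓ40 : 40 * Real.log 2 ≤ ℓ := by
    have : (2 : ℝ) ^ 40 ≤ 1 / ε := by
      rw [le_div_iff₀ hε]
      calc (2 : ℝ) ^ 40 * ε ≤ 2 ^ 40 * (1 / 2 ^ 40) := by gcongr
        _ = 1 := by norm_num
    calc 40 * Real.log 2 = Real.log ((2 : ℝ) ^ 40) := by rw [Real.log_pow]; norm_num
      _ ≤ ℓ := Real.log_le_log (by positivity) this
  have hu0 : (1 : ℝ) ≤ u := by exact_mod_cast hu1
  have hupos : (0 : ℝ) < u := by linarith
  have hdpos : (0 : ℝ) < d := by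
    have : (8 : ℝ) ≤ d := by exact_mod_cast hd
    linarith
  have hM : (0 : ℝ) ≤ M := Nat.cast_nonneg M
  have hT0 : (0 : ℝ) ≤ T := Nat.cast_nonneg T
  have hd16 : (d : ℝ) ≤ 16 * u := by
    have : d ≤ 16 * u := h2.le
    exact_mod_cast this
  have hud : (u : ℝ) ≤ d := by
    have : u ≤ d := by omega
    exact_mod_cast this
  have hnu : (n : ℝ) * u ≤ T + u := by
    have h3 : (T / u) * u ≤ T := Nat.div_mul_le_self T u
    have h4 : n * u ≤ T + u := by rw [hn]; nlinarith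
    exact_mod_cast h4
  have hn0 : (0 : ℝ) ≤ n := Nat.cast_nonneg n
  -- 2 u ℓ ≤ n u (M/(2u²) + 17)
  have hq : (2 : ℝ) * ℓ ≤ n * ((M : ℝ) / (2 * u ^ 2) + 17) := by
    have e1 : (n * ((M : ℝ) / (2 * u) + 17 * u) + 17 * u) * Real.log 2 =
        u * ((n * ((M : ℝ) / (2 * u ^ 2) + 17) + 17) * Real.log 2) := by
      field_simp
    rw [e1] at hb
    have h5 : 3 * ℓ ≤ (n * ((M : ℝ) / (2 * u ^ 2) + 17) + 17) * Real.log 2 := by
      have : (u : ℝ) * (3 * ℓ) ≤ u * ((n * ((M : ℝ) / (2 * u ^ 2) + 17) + 17) * Real.log 2) := by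
        linarith
      exact le_of_mul_le_mul_left this hupos
    have h6 : 0 ≤ n * ((M : ℝ) / (2 * u ^ 2) + 17) := by positivity
    have h7 : n * ((M : ℝ) / (2 * u ^ 2) + 17) * Real.log 2 ≤ n * ((M : ℝ) / (2 * u ^ 2) + 17) :=
      mul_le_of_le_one_right h6 hlog2'
    nlinarith
  have hMM : (M : ℝ) / (2 * u ^ 2) ≤ 128 * (M / (d : ℝ) ^ 2) := by
    have h8 : (d : ℝ) ^ 2 ≤ 256 * u ^ 2 := by nlinarith
    rw [mul_div_assoc', div_le_div_iff₀ (by positivity) (by positivity)]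
    nlinarith
  have h9 : (M : ℝ) / (2 * u ^ 2) + 17 ≤ 128 * (1 + M / (d : ℝ) ^ 2) := by linarith
  have hpos : 0 ≤ (M : ℝ) / (2 * u ^ 2) + 17 := by positivity
  have h10 : 2 * ℓ * u ≤ (T + d) * (128 * (1 + M / (d : ℝ) ^ 2)) := by
    calc 2 * ℓ * u ≤ n * ((M : ℝ) / (2 * u ^ 2) + 17) * u :=
          mul_le_mul_of_nonneg_right hq hupos.le
      _ = n * u * ((M : ℝ) / (2 * u ^ 2) + 17) := by ring
      _ ≤ (T + d) * ((M : ℝ) / (2 * u ^ 2) + 17) :=
          mul_le_mul_of_nonneg_right (by linarith) hpos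
      _ ≤ _ := mul_le_mul_of_nonneg_left h9 (by linarith)
  have hℓ0 : 0 ≤ ℓ := by linarith
  have h11 : (d : ℝ) * ℓ ≤ 16 * u * ℓ := mul_le_mul_of_nonneg_right hd16 hℓ0
  nlinarith

/-- Question Q1, in the affirmative, for every constant `A`. -/
theorem q1 (A : ℝ) (hA : 0 < A) : ∃ c' : ℝ, 0 < c' ∧ ∃ ε₀ : ℝ, 0 < ε₀ ∧ ∃ d₀ : ℕ,
    ∀ d : ℕ, d₀ ≤ d → ∀ ε : ℝ, 0 < ε → ε ≤ ε₀ →
    ∀ M T : ℕ, (M : ℝ) ≤ A * (d : ℝ) ^ 2 →
    ∀ (Ω : Type) [MeasurableSpace Ω] (P : Measure Ω) [IsProbabilityMeasure P]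
      (L : Learner Ω d M), 2 / 3 ≤ successProb L P T ε →
      c' * d * Real.log (1 / ε) ≤ T := by
  obtain ⟨c₀, hc₀, h⟩ := tradeoff
  have hA1 : 0 < 1 + A := by linarith
  refine ⟨c₀ / (2 * (1 + A)), by positivity, min (1 / 2 ^ 40) (Real.exp (-(2 * (1 + A) / c₀))),
    lt_min (by positivity) (Real.exp_pos _), 8, ?_⟩
  intro d hd ε hε hε0 M T hM Ω _ P _ L hs
  have h1 := h d hd ε hε (hε0.trans (min_le_left _ _)) M T Ω P L hs
  have hdpos : (0 : ℝ) < d := by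
    have : (8 : ℝ) ≤ d := by exact_mod_cast hd
    linarith
  set ℓ := Real.log (1 / ε) with hℓ
  have hℓ' : 2 * (1 + A) / c₀ ≤ ℓ := by
    have h2 : Real.log ε ≤ -(2 * (1 + A) / c₀) := by
      rw [Real.log_le_iff_le_exp hε]
      exact hε0.trans (min_le_right _ _)
    have h3 : ℓ = -Real.log ε := by rw [hℓ, one_div, Real.log_inv]
    linarith
  have hℓ2 : 2 * (1 + A) ≤ c₀ * ℓ := by
    rw [div_le_iff₀ hc₀] at hℓ'; linarith
  have hMd : (M : ℝ) / (d : ℝ) ^ 2 ≤ A := by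
    rw [div_le_iff₀ (by positivity)]; exact hM
  have hT0 : (0 : ℝ) ≤ T := Nat.cast_nonneg T
  have h4 : c₀ * d * ℓ ≤ (T + d) * (1 + A) := by
    refine h1.trans (mul_le_mul_of_nonneg_left (by linarith) (by linarith))
  have h5 : c₀ / (2 * (1 + A)) * d * ℓ * (2 * (1 + A)) = c₀ * d * ℓ := by
    field_simp
  have h6 : d * (2 * (1 + A)) ≤ d * (c₀ * ℓ) := mul_le_mul_of_nonneg_left hℓ2 hdpos.le
  have h7 : c₀ / (2 * (1 + A)) * d * ℓ * (2 * (1 + A)) ≤ T * (2 * (1 + A)) := by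
    rw [h5]; nlinarith
  exact le_of_mul_le_mul_right h7 (by positivity)

end P309
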