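import Vale.Agent.P309.Basic

open MeasureTheory ProbabilityTheory Metric Set
open scoped ENNReal RealInnerProductSpace

namespace P309

namespace GStepAux

/-- resampling the component of a standard Gaussian vector along the unit vector `e` -/
theorem resample {d : ℕ} (e : E d) (he : ‖e‖ = 1) :
    ((gaussianReal 0 1).prod (stdGaussian (E d))).map
      (fun p : ℝ × E d => p.2 - (inner ℝ p.2 e) • e + p.1 • e) = stdGaussian (E d) := by
  have hmeas : Measurable fun p : ℝ × E d => p.2 - (inner ℝ p.2 e) • e + p.1 • e := by fun_prop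
  apply Measure.ext_of_charFun
  ext t
  rw [charFun_stdGaussian, charFun_apply, integral_map hmeas.aemeasurable (by fun_prop)]
  have h1 : ∀ p : ℝ × E d,
      Complex.exp ((inner ℝ (p.2 - (inner ℝ p.2 e) • e + p.1 • e) t : ℝ) * Complex.I) =
      Complex.exp ((p.1 * (inner ℝ e t) : ℝ) * Complex.I) *
        Complex.exp ((inner ℝ p.2 (t - (inner ℝ e t) • e) : ℝ) * Complex.I) := by
    intro p
    rw [← Complex.exp_add, ← add_mul, ← Complex.ofReal_add]
    congr 3
    rw [inner_add_left, inner_sub_left, inner_sub_right, inner_smul_left, inner_smul_left,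
      inner_smul_right]
    simp only [conj_trivial]
    ring
  simp only [h1]
  rw [integral_prod_mul (f := fun g : ℝ => Complex.exp ((g * (inner ℝ e t) : ℝ) * Complex.I))
    (g := fun x : E d =>
      Complex.exp ((inner ℝ x (t - (inner ℝ e t) • e) : ℝ) * Complex.I))]
  have h2 : ∫ g : ℝ, Complex.exp ((g * (inner ℝ e t) : ℝ) * Complex.I) ∂(gaussianReal 0 1) =
      Complex.exp (- ((inner ℝ e t : ℝ) : ℂ) ^ 2 / 2) := by
    have := charFun_gaussianReal (μ := 0) (v := 1) (inner ℝ e t)
    rw [charFun_apply_real] at this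
    simp only [Complex.ofReal_zero, mul_zero, zero_mul, NNReal.coe_one, Complex.ofReal_one,
      one_mul, zero_sub] at this
    rw [neg_div, ← this]
    refine integral_congr_ae (Filter.Eventually.of_forall fun g => ?_)
    show Complex.exp _ = Complex.exp _
    congr 1
    push_cast
    ring
  have h3 : ∫ x : E d, Complex.exp ((inner ℝ x (t - (inner ℝ e t) • e) : ℝ) * Complex.I)
      ∂(stdGaussian (E d)) =
      Complex.exp (- ((‖t - (inner ℝ e t) • e‖ : ℝ) : ℂ) ^ 2 / 2) := by
    rw [← charFun_apply, charFun_stdGaussian]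
  rw [h2, h3, ← Complex.exp_add]
  congr 1
  have h4 : ‖t - (inner ℝ e t) • e‖ ^ 2 = ‖t‖ ^ 2 - (inner ℝ e t) ^ 2 := by
    rw [norm_sub_sq_real, inner_smul_right, norm_smul, he, mul_one, Real.norm_eq_abs, sq_abs,
      real_inner_comm e t]
    ring
  have h5 : ((‖t - (inner ℝ e t) • e‖ : ℝ) : ℂ) ^ 2 = ((‖t‖ : ℝ) : ℂ) ^ 2 -
      ((inner ℝ e t : ℝ) : ℂ) ^ 2 := by
    rw [← Complex.ofReal_pow, h4]
    push_cast
    ring
  rw [h5]
  ring

theorem gaussian_interval (a : ℝ) {δ η : ℝ} (hδ : 0 < δ) (hη : 0 < η) :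
    gaussianReal 0 1 {g | |a + g * δ| < η} ≤ ENNReal.ofReal (η / δ) := by
  have hsub : {g : ℝ | |a + g * δ| < η} ⊆ Ioo ((-η - a) / δ) ((η - a) / δ) := by
    intro g hg
    rw [mem_setOf_eq, abs_lt] at hg
    constructor
    · rw [div_lt_iff₀ hδ]; linarith [hg.1]
    · rw [lt_div_iff₀ hδ]; linarith [hg.2]
  refine (measure_mono hsub).trans ?_
  rw [gaussianReal_apply 0 one_ne_zero]
  have hpdf : ∀ x : ℝ, gaussianPDF 0 1 x ≤ ENNReal.ofReal (1 / 2) := by
    intro x
    unfold gaussianPDF
    refine ENNReal.ofReal_le_ofReal ?_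
    unfold gaussianPDFReal
    have h1 : Real.exp (-(x - 0) ^ 2 / (2 * ((1 : NNReal) : ℝ))) ≤ 1 := by
      rw [Real.exp_le_one_iff]
      have : 0 ≤ (x - 0) ^ 2 := sq_nonneg _
      have h2 : (2 * ((1 : NNReal) : ℝ)) = 2 := by norm_num
      rw [h2]
      linarith
    have h2 : (√(2 * Real.pi * ((1 : NNReal) : ℝ)))⁻¹ ≤ 1 / 2 := by
      rw [one_div]
      refine inv_anti₀ (by norm_num) ?_
      apply Real.le_sqrt_of_sq_le
      have := Real.pi_gt_three
      norm_num
      linarith
    calc (√(2 * Real.pi * ((1 : NNReal) : ℝ)))⁻¹ * Real.exp (-(x - 0) ^ 2 / (2 * ((1 : NNReal) : ℝ)))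
        ≤ 1 / 2 * 1 := mul_le_mul h2 h1 (Real.exp_pos _).le (by norm_num)
      _ = 1 / 2 := by ring
  calc ∫⁻ x in Ioo ((-η - a) / δ) ((η - a) / δ), gaussianPDF 0 1 x
      ≤ ∫⁻ _x in Ioo ((-η - a) / δ) ((η - a) / δ), ENNReal.ofReal (1 / 2) :=
        lintegral_mono fun x => hpdf x
    _ = ENNReal.ofReal (1 / 2) * ENNReal.ofReal ((η - a) / δ - (-η - a) / δ) := by
        rw [setLIntegral_const, Real.volume_Ioo]
    _ = ENNReal.ofReal (η / δ) := by
        rw [← ENNReal.ofReal_mul (by norm_num)]
        congr 1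
        field_simp
        ring

end GStepAux

/-- TASK P309-GSTEP.  If the event `S` only depends on the inner products with vectors of `W`, then
`γ(S ∩ {|⟪x,v⟫| < η}) * dist(v, W) ≤ γ(S) * η`. -/
theorem gauss_step {d : ℕ} (W : Submodule ℝ (E d)) (v : E d) {S : Set (E d)}
    (hS : MeasurableSet S)
    (hSW : ∀ x y : E d, (∀ w ∈ W, ⟪x, w⟫ = ⟪y, w⟫) → x ∈ S → y ∈ S) {η : ℝ} (hη : 0 < η) :
    stdGaussian (E d) (S ∩ {x | |⟪x, v⟫| < η}) * ENNReal.ofReal (infDist v (W : Set (E d))) ≤
      stdGaussian (E d) S * ENNReal.ofReal η := by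
  obtain ⟨w0, hw0W, hw0r⟩ : ∃ w0 ∈ W, v - w0 ∈ Wᗮ :=
    ⟨W.starProjection v, W.starProjection_apply_mem v, W.sub_starProjection_mem_orthogonal v⟩
  obtain ⟨r, hr⟩ : ∃ r : E d, r = v - w0 := ⟨_, rfl⟩
  have hrW : ∀ w ∈ W, inner ℝ r w = 0 := by
    intro w hw
    rw [hr]
    rw [Submodule.mem_orthogonal'] at hw0r
    exact hw0r w hw
  set δ : ℝ := ‖r‖ with hδ
  have hle : infDist v (W : Set (E d)) ≤ δ := by
    refine (infDist_le_dist_of_mem (SetLike.mem_coe.2 hw0W)).trans ?_
    rw [dist_eq_norm, hδ, hr]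
  rcases eq_or_lt_of_le (norm_nonneg r) with h0 | hδpos
  · have : ENNReal.ofReal (infDist v (W : Set (E d))) = 0 := by
      rw [ENNReal.ofReal_eq_zero]
      rw [← hδ] at h0
      linarith
    rw [this, mul_zero]
    exact bot_le
  · rw [← hδ] at hδpos
    refine (mul_le_mul_right (ENNReal.ofReal_le_ofReal hle) _).trans ?_
    obtain ⟨e, he⟩ : ∃ e : E d, e = δ⁻¹ • r := ⟨_, rfl⟩
    have hen : ‖e‖ = 1 := by
      rw [he, norm_smul, Real.norm_eq_abs, abs_of_pos (inv_pos.2 hδpos), ← hδ,
        inv_mul_cancel₀ hδpos.ne']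
    have heW : ∀ w ∈ W, inner ℝ e w = 0 := by
      intro w hw
      rw [he, inner_smul_left, hrW w hw, mul_zero]
    have hev : inner ℝ e v = δ := by
      have h1 : v = r + w0 := by rw [hr]; abel
      rw [h1, inner_add_right, heW w0 hw0W, add_zero, he, inner_smul_left,
        real_inner_self_eq_norm_sq, ← hδ]
      simp only [conj_trivial]
      field_simp
    set T : ℝ × E d → E d := fun p => p.2 - (inner ℝ p.2 e) • e + p.1 • e with hT
    have hTm : Measurable T := by rw [hT]; fun_prop
    have hTS : ∀ g x, T (g, x) ∈ S ↔ x ∈ S := by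
      intro g x
      have hin : ∀ w ∈ W, inner ℝ (T (g, x)) w = inner ℝ x w := by
        intro w hw
        rw [hT]
        simp only
        rw [inner_add_left, inner_sub_left, inner_smul_left, inner_smul_left, heW w hw]
        ring
      exact ⟨fun h => hSW _ _ hin h, fun h => hSW _ _ (fun w hw => (hin w hw).symm) h⟩
    have hAm : MeasurableSet {x : E d | |inner ℝ x v| < η} := by
      have : Measurable fun x : E d => |inner ℝ x v| := by fun_prop
      exact this measurableSet_Iio
    have hSA : MeasurableSet (S ∩ {x : E d | |inner ℝ x v| < η}) := hS.inter hAm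
    have key : stdGaussian (E d) (S ∩ {x | |inner ℝ x v| < η}) ≤
        stdGaussian (E d) S * ENNReal.ofReal (η / δ) := by
      conv_lhs => rw [← GStepAux.resample e hen]
      rw [Measure.map_apply hTm hSA, Measure.prod_apply_symm (hTm hSA)]
      calc ∫⁻ x, gaussianReal 0 1 ((fun g => (g, x)) ⁻¹' (T ⁻¹' (S ∩ {x | |inner ℝ x v| < η})))
            ∂(stdGaussian (E d))
          ≤ ∫⁻ x, S.indicator (fun _ => ENNReal.ofReal (η / δ)) x ∂(stdGaussian (E d)) := by
            refine lintegral_mono fun x => ?_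
            by_cases hx : x ∈ S
            · rw [indicator_of_mem hx]
              refine le_trans (measure_mono ?_) (GStepAux.gaussian_interval
                (inner ℝ x v - inner ℝ x e * δ) hδpos hη)
              intro g hg
              have h2 : |inner ℝ (T (g, x)) v| < η := hg.2
              have h3 : inner ℝ (T (g, x)) v = inner ℝ x v - inner ℝ x e * δ + g * δ := by
                rw [hT]
                simp only
                rw [inner_add_left, inner_sub_left, inner_smul_left, inner_smul_left, hev]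
                simp only [conj_trivial]
              rw [h3] at h2
              exact h2
            · rw [indicator_of_notMem hx]
              have : (fun g => (g, x)) ⁻¹' (T ⁻¹' (S ∩ {x | |inner ℝ x v| < η})) = ∅ := by
                ext g
                simp only [mem_preimage, mem_inter_iff, mem_empty_iff_false, iff_false]
                intro h
                exact hx ((hTS g x).1 h.1)
              rw [this, measure_empty]
        _ = stdGaussian (E d) S * ENNReal.ofReal (η / δ) := by
            rw [lintegral_indicator hS, setLIntegral_const, mul_comm]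
    calc stdGaussian (E d) (S ∩ {x | |inner ℝ x v| < η}) * ENNReal.ofReal δ
        ≤ stdGaussian (E d) S * ENNReal.ofReal (η / δ) * ENNReal.ofReal δ :=
          mul_le_mul_left key _
      _ = stdGaussian (E d) S * ENNReal.ofReal η := by
          rw [mul_assoc, ← ENNReal.ofReal_mul (by positivity), div_mul_cancel₀ _ hδpos.ne']

end P309
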